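import Vale.Agent.Lib.P154Neg.Rel

/-!
# Data of a stationary potential with a relaxed merge inequality, eigenvalue of absolute value at most `2/7`
-/

namespace Vale.Agent.Lib.P154Neg.B7

open Vale.Agent.Lib.P154 Vale.Agent.Lib.P154GW Vale.Agent.Lib.P154K Tp

/-- The terms of the potential. -/
def Lq : List (ℕ × ℕ × ℤ) := [(1, 0, 16777216), (2, 0, 1499748), (1, 1, -34056552), (3, 0, -2298256), (0, 2, 264998128), (2, 1, 245226528), (4, 0, -17115584), (1, 2, -1278222848), (3, 1, -1744207360), (0, 3, 5207415424), (5, 0, 504871936), (2, 2, 3567016448), (4, 1, 1661797888), (1, 3, -21782750720), (6, 0, -608062464), (3, 2, -66990080), (0, 4, 28271512576)]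

/-- The terms of the right side. -/
def Rq : List (ℕ × ℕ × ℕ × ℕ × ℤ) :=
  [(1, 0, 0, 0, 16777216), (0, 0, 1, 0, 16777216), (2, 0, 0, 0, 1499748), (0, 0, 2, 0, 18371913), (1, 1, 0, 0, -34056552), (0, 0, 1, 1, 1460174667), (3, 0, 0, 0, -2298256), (0, 0, 3, 0, -344882041), (0, 2, 0, 0, 264998128), (0, 0, 0, 2, 39766281583), (2, 1, 0, 0, 245226528), (0, 0, 2, 1, -128797570503), (4, 0, 0, 0, -17115584), (0, 0, 4, 0, -31462989719), (1, 2, 0, 0, -1278222848), (0, 0, 1, 2, -2349713122568), (3, 1, 0, 0, -1744207360), (0, 0, 3, 1, 11222107514660), (0, 3, 0, 0, 5207415424), (0, 0, 0, 3, -33504144691619), (5, 0, 0, 0, 504871936), (0, 0, 5, 0, 11369086880956), (2, 2, 0, 0, 3567016448), (0, 0, 2, 2, 80324765572058), (4, 1, 0, 0, 1661797888), (0, 0, 4, 1, -130975661886293), (1, 3, 0, 0, -21782750720), (0, 0, 1, 3, 1716821410027045), (6, 0, 0, 0, -608062464), (0, 0, 6, 0, -167736910083939), (3, 2, 0, 0, -66990080), (0, 0, 3, 2, -18479530789580),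 (0, 4, 0, 0, 28271512576), (0, 0, 0, 4, 7798830619640851), (1, 0, 1, 0, -307453), (1, 0, 3, 0, 13738962762), (0, 0, 3, 0, -534445651)]

/-- The list of the margin at the end of the ray. -/
def Lfy : List (ℕ × ℕ × ℤ) := [(2, 0, 1556234778626640), (1, 1, -39378037145245344), (3, 0, -6603624711421696), (0, 2, 297426335820626880), (2, 1, 277609253081602176), (4, 0, -19328395212322560), (1, 2, -1443479601722296320), (3, 1, -1971087944014264320), (0, 3, 5884778379630463488), (5, 0, 570429970884587520), (2, 2, 4030196458726287360), (4, 1, 1877690912336418816), (1, 3, -24612664011662039040), (6, 0, -687047893079961600), (3, 2, -75691883722752000), (0, 4, 31943894417933414400)]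

/-- The subdivision for the margin. -/
def RTf : RT := (.sT (.sT (.sT .leaf .leaf) .leaf) (.sT .leaf (.sT .leaf .leaf)))

/-- The terms for the second moment. -/
def LPq : List (ℕ × ℕ × ℤ) := [(1, 0, 1024)]

/-- The right side for the second moment. -/
def RPq : List (ℕ × ℕ × ℕ × ℕ × ℤ) := [(1, 0, 0, 0, 1024), (0, 0, 1, 0, 1190), (0, 0, 2, 0, 4096)]

lemma hLne : Lq ≠ [] := by simp [Lq]
lemma hRne : Rq ≠ [] := by simp [Rq]
lemma hLPne : LPq ≠ [] := by simp [LPq]
lemma hRPne : RPq ≠ [] := by simp [RPq]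

lemma hLq : ∀ t ∈ Lq, 2 * t.1 + 3 * t.2.1 ≤ 12 - 1 + 1 := by
  intro t ht
  simp only [Lq, List.mem_cons, List.not_mem_nil, or_false] at ht
  repeat' (rcases ht with rfl | ht)
  all_goals norm_num

lemma hRq0 : ∀ t ∈ Rq, 2 * t.1 + 3 * t.2.1 ≤ 12 ∧ 2 * t.2.2.1 + 3 * t.2.2.2.1 ≤ 12 := by
  intro t ht
  simp only [Rq, List.mem_cons, List.not_mem_nil, or_false] at ht
  repeat' (rcases ht with rfl | ht)
  all_goals norm_num

lemma hRqg (g : ℕ) : ∀ t ∈ Rq, 2 * t.1 + 3 * t.2.1 ≤ 12 + g ∧ 2 * t.2.2.1 + 3 * t.2.2.2.1 ≤ 12 + g := by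
  intro t ht
  have := hRq0 t ht
  omega
lemma hLq2 : ∀ t ∈ Lq, 2 * t.1 + 3 * t.2.1 ≤ 12 := by
  intro t ht
  simp only [Lq, List.mem_cons, List.not_mem_nil, or_false] at ht
  repeat' (rcases ht with rfl | ht)
  all_goals norm_num

lemma hLq3 : ∀ t ∈ Lq, 2 * t.1 + 3 * t.2.1 - 2 ≤ 10 := by
  intro t ht
  simp only [Lq, List.mem_cons, List.not_mem_nil, or_false] at ht
  repeat' (rcases ht with rfl | ht)
  all_goals norm_num

lemma hLq4 : ∀ t ∈ Lq, 2 ≤ 2 * t.1 + 3 * t.2.1 := by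
  intro t ht
  simp only [Lq, List.mem_cons, List.not_mem_nil, or_false] at ht
  repeat' (rcases ht with rfl | ht)
  all_goals norm_num

lemma hLfy : ∀ t ∈ Lfy, 2 * t.1 + 3 * t.2.1 ≤ 12 := by
  intro t ht
  simp only [Lfy, List.mem_cons, List.not_mem_nil, or_false] at ht
  repeat' (rcases ht with rfl | ht)
  all_goals norm_num

lemma hLPq : ∀ t ∈ LPq, 2 * t.1 + 3 * t.2.1 ≤ 2 - 1 + 1 := by
  intro t ht
  simp only [LPq, List.mem_cons, List.not_mem_nil, or_false] at ht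
  repeat' (rcases ht with rfl | ht)
  all_goals norm_num

lemma hRPq : ∀ t ∈ RPq, 2 * t.1 + 3 * t.2.1 ≤ 2 + 4 ∧ 2 * t.2.2.1 + 3 * t.2.2.2.1 ≤ 2 + 4 := by
  intro t ht
  simp only [RPq, List.mem_cons, List.not_mem_nil, or_false] at ht
  repeat' (rcases ht with rfl | ht)
  all_goals norm_num


lemma hLPe (c : Tp) : potL LPq c = 1024 * p2T c := by
  simp only [potL, LPq, List.map_cons, List.map_nil, List.sum_cons, List.sum_nil]
  norm_num

end Vale.Agent.Lib.P154Neg.B7
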