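import Vale.Agent.Lib.P154Neg.B7.RayAll

/-!
# Pieces of the merge inequality
-/

namespace Vale.Agent.Lib.P154Neg.B7

open Vale.Agent.Lib.P154 Vale.Agent.Lib.P154GW Vale.Agent.Lib.P154K Tp

theorem c0 : leafOK 277 29 334 (⟨1, 1, -2, 5, -1, -4, 0, 0, 0, 12⟩ : Trg) (⟨-1, -1, 2, -2, -2, 4, -5, 1, 4, 42⟩ : Trg) Lq 12 5 67108864 Rq
    ⟨[(0, 823196023170), (1, -4079258489378), (2, 8126519992155), (3, -8127915241009), (4, 4078398089039), (5, -820873265113)], 12288, 16384, 16385, 16384, 8, 1⟩
    ⟨[(0, 212560403361), (1, -943397518614), (2, 1685670784404), (3, -1514172997358), (4, 683195440979), (5, -123789003908)], 15798, 16384, 18432, 16384, 1, 2⟩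
    ⟨[(0, 167865543967), (1, -727703161507), (2, 1269547604408), (3, -1113018212443), (4, 489952279679), (5, -86576945240)], 16091, 16384, 19310, 16384, 1, 2⟩ = true := by
  decide +kernel

theorem l0 : HoldsOn Lq Rq (Trg.left (Trg.left (chamber 1 1))) (Trg.right (Trg.left (chamberN 2 7))) :=
  HoldsOn.congrT (by decide +kernel) (by decide +kernel)
    (holdsOn_of_leafOK hLne hRne (by norm_num) (by norm_num) hLq (hRqg 5) hNn c0)

theorem c1 : leafOK 293 29 372 (⟨1, 1, -2, 2, 2, -4, 5, -1, -4, 12⟩ : Trg) (⟨-1, -1, 2, -5, 1, 4, 0, 0, 0, 42⟩ : Trg) Lq 12 6 67108864 Rq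
    ⟨[(0, 2473306009184), (1, -14842052725739), (2, 37307068747001), (3, -50229121692848), (4, 38175023081360), (5, -15519387647901), (6, 2635231337807)], 12288, 16384, 16385, 16384, 16, 1⟩
    ⟨[(0, 457597755516), (1, -2374257673384), (2, 5165057296168), (3, -6023980783295), (4, 3969336904685), (5, -1400117959645), (6, 206431568819)], 16091, 16384, 19310, 16384, 1, 4⟩
    ⟨[(0, 590497623335), (1, -3140815579258), (2, 7006436366156), (3, -8381887800913), (4, 5666863789047), (5, -2051576633011), (6, 310549343508)], 15798, 16384, 18432, 16384, 1, 4⟩ = true := by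
  decide +kernel

theorem l1 : HoldsOn Lq Rq (Trg.right (Trg.left (chamber 1 1))) (Trg.left (Trg.left (chamberN 2 7))) :=
  HoldsOn.congrT (by decide +kernel) (by decide +kernel)
    (holdsOn_of_leafOK hLne hRne (by norm_num) (by norm_num) hLq (hRqg 6) hNn c1)

end Vale.Agent.Lib.P154Neg.B7
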