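import Vale.Agent.Lib.P154Neg.B7.RayAll

/-!
# Pieces of the merge inequality
-/

namespace Vale.Agent.Lib.P154Neg.B7

open Vale.Agent.Lib.P154 Vale.Agent.Lib.P154GW Vale.Agent.Lib.P154K Tp

theorem c2 : leafOK 282 29 334 (⟨1, 1, -2, 2, 2, -4, 5, -1, -4, 12⟩ : Trg) (⟨-1, -1, 2, -2, -2, 4, -5, 1, 4, 42⟩ : Trg) Lq 12 5 67108864 Rq
    ⟨[(0, 1638031726827), (1, -8694862490580), (2, 18562032800610), (3, -19901228164841), (4, 10707260486877), (5, -2311175916837)], 12288, 14043, 15799, 16384, 8, 8⟩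
    ⟨[(0, 139446563141), (1, -593762538190), (2, 1017361816439), (3, -875911231572), (4, 378629483161), (5, -65696962171)], 15798, 17554, 19310, 16384, 4, 2⟩
    ⟨[(0, 139446563141), (1, -593762538190), (2, 1017361816439), (3, -875911231572), (4, 378629483161), (5, -65696962171)], 15798, 17554, 19310, 16384, 4, 2⟩ = true := by
  decide +kernel

theorem l2 : HoldsOn Lq Rq (Trg.right (Trg.left (chamber 1 1))) (Trg.right (Trg.left (chamberN 2 7))) :=
  HoldsOn.congrT (by decide +kernel) (by decide +kernel)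
    (holdsOn_of_leafOK hLne hRne (by norm_num) (by norm_num) hLq (hRqg 5) hNn c2)

theorem c3 : leafOK 292 29 372 (⟨4, -2, -2, 0, 0, 0, 5, -1, -4, 12⟩ : Trg) (⟨-1, -1, 2, -5, 1, 4, 0, 0, 0, 42⟩ : Trg) Lq 12 6 67108864 Rq
    ⟨[(0, 2473306009184), (1, -14842052725739), (2, 37307068747001), (3, -50229121692848), (4, 38175023081360), (5, -15519387647901), (6, 2635231337807)], 12288, 16384, 16385, 16384, 16, 1⟩
    ⟨[(0, 590497623335), (1, -3140815579258), (2, 7006436366156), (3, -8381887800913), (4, 5666863789047), (5, -2051576633011), (6, 310549343508)], 15798, 16384, 18432, 16384, 1, 4⟩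
    ⟨[(0, 487839458477), (1, -2549951524135), (2, 5590001375022), (3, -6571679273636), (4, 4366079748293), (5, -1553265455265), (6, 231042780108)], 16383, 16384, 18725, 16384, 1, 8⟩ = true := by
  decide +kernel

theorem l3 : HoldsOn Lq Rq (Trg.right (Trg.right (chamber 1 1))) (Trg.left (Trg.left (chamberN 2 7))) :=
  HoldsOn.congrT (by decide +kernel) (by decide +kernel)
    (holdsOn_of_leafOK hLne hRne (by norm_num) (by norm_num) hLq (hRqg 6) hNn c3)

end Vale.Agent.Lib.P154Neg.B7
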