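import Vale.Agent.Lib.P154Neg.B7.RayAll

/-!
# Pieces of the merge inequality
-/

namespace Vale.Agent.Lib.P154Neg.B7

open Vale.Agent.Lib.P154 Vale.Agent.Lib.P154GW Vale.Agent.Lib.P154K Tp

theorem c20 : leafOK 277 30 313 (⟨5, -1, -4, 8, -4, -4, 0, 0, 0, 24⟩ : Trg) (⟨-1, 2, -1, -2, 4, -2, -5, 4, 1, 42⟩ : Trg) Lq 12 4 67108864 Rq
    ⟨[(0, 177069191503), (1, -682450227024), (2, 992053609813), (3, -644026671606), (4, 157421206178)], 13458, 16384, 16385, 16384, 8, 1⟩
    ⟨[(0, 58952520273), (1, -206821357578), (2, 273796229165), (3, -161931833728), (4, 36071550732)], 16383, 16384, 18725, 16384, 1, 4⟩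
    ⟨[(0, 103043255751), (1, -381198523701), (2, 532386141635), (3, -332343102211), (4, 78179337390)], 15213, 16384, 16970, 16384, 1, 2⟩ = true := by
  decide +kernel

theorem l20 : HoldsOn Lq Rq (Trg.left (Trg.right (Trg.right (chamber 1 1)))) (Trg.right (Trg.left (chamberNR 2 7))) :=
  HoldsOn.congrT (by decide +kernel) (by decide +kernel)
    (holdsOn_of_leafOK hLne hRne (by norm_num) (by norm_num) hLq (hRqg 4) hNn c20)

theorem c21 : leafOK 282 30 313 (⟨5, -1, -4, 10, -2, -8, 8, -4, -4, 24⟩ : Trg) (⟨-1, 2, -1, -2, 4, -2, -5, 4, 1, 42⟩ : Trg) Lq 12 4 67108864 Rq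
    ⟨[(0, 305304813269), (1, -1238358599794), (2, 1894270050028), (3, -1293793763141), (4, 332645720389)], 13165, 14701, 16238, 16384, 8, 8⟩
    ⟨[(0, 22163058466), (1, -71059398339), (2, 85962593190), (3, -46455152129), (4, 9454875007)], 17115, 18651, 20188, 16384, 2, 2⟩
    ⟨[(0, 169403894804), (1, -652358035983), (2, 947620921716), (3, -614768643811), (4, 150169113796)], 14043, 15506, 16970, 16384, 4, 8⟩ = true := by
  decide +kernel

theorem l21 : HoldsOn Lq Rq (Trg.right (Trg.right (Trg.right (chamber 1 1)))) (Trg.right (Trg.left (chamberNR 2 7))) :=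
  HoldsOn.congrT (by decide +kernel) (by decide +kernel)
    (holdsOn_of_leafOK hLne hRne (by norm_num) (by norm_num) hLq (hRqg 4) hNn c21)

end Vale.Agent.Lib.P154Neg.B7
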