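import Vale.Agent.Lib.P154Neg.B7.RayAll

/-!
# Pieces of the merge inequality
-/

namespace Vale.Agent.Lib.P154Neg.B7

open Vale.Agent.Lib.P154 Vale.Agent.Lib.P154GW Vale.Agent.Lib.P154K Tp

theorem c22 : leafOK 314 31 332 (⟨7, 1, -8, 2, 2, -4, 4, 4, -8, 24⟩ : Trg) (⟨-5, 4, 1, -10, 8, 2, -8, 4, 4, 84⟩ : Trg) Lq 12 5 67108864 Rq
    ⟨[(0, 632080853903), (1, -3099404839513), (2, 6119320355023), (3, -6074475398994), (4, 3029281710958), (5, -606735588772)], 14336, 15287, 16238, 16384, 4, 4⟩
    ⟨[(0, 80884222112), (1, -328753494226), (2, 537951525616), (3, -442531287059), (4, 182859651582), (5, -30343726990)], 17115, 18432, 19749, 16384, 2, 2⟩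
    ⟨[(0, 741959258674), (1, -3689905949176), (2, 7388178857152), (3, -7437176375868), (4, 3760730094410), (5, -763718882562)], 14043, 15067, 16092, 16384, 8, 4⟩ = true := by
  decide +kernel

theorem l22 : HoldsOn Lq Rq (Trg.left (Trg.right (Trg.left (chamber 1 1)))) (Trg.right (Trg.right (Trg.right (chamberNR 2 7)))) :=
  HoldsOn.congrT (by decide +kernel) (by decide +kernel)
    (holdsOn_of_leafOK hLne hRne (by norm_num) (by norm_num) hLq (hRqg 5) hNn c22)

theorem c23 : leafOK 317 30 372 (⟨4, -2, -2, 5, -1, -4, 8, -4, -4, 12⟩ : Trg) (⟨-5, 1, 4, -8, 4, 4, 0, 0, 0, 84⟩ : Trg) Lq 12 6 67108864 Rq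
    ⟨[(0, 2966333004899), (1, -18009678949639), (2, 45775265510395), (3, -62286945433082), (4, 47820177691058), (5, -19629043554961), (6, 3363958840194)], 11702, 16384, 16385, 16384, 16, 1⟩
    ⟨[(0, 487839458477), (1, -2549951524135), (2, 5590001375022), (3, -6571679273636), (4, 4366079748293), (5, -1553265455265), (6, 231042780108)], 16383, 16384, 18725, 16384, 1, 8⟩
    ⟨[(0, 487839458477), (1, -2549951524135), (2, 5590001375022), (3, -6571679273636), (4, 4366079748293), (5, -1553265455265), (6, 231042780108)], 16383, 16384, 18725, 16384, 1, 8⟩ = true := by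
  decide +kernel

theorem l23 : HoldsOn Lq Rq (Trg.left (Trg.right (chamber 1 1))) (Trg.left (Trg.right (Trg.right (chamberN 2 7)))) :=
  HoldsOn.congrT (by decide +kernel) (by decide +kernel)
    (holdsOn_of_leafOK hLne hRne (by norm_num) (by norm_num) hLq (hRqg 6) hNn c23)

end Vale.Agent.Lib.P154Neg.B7
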