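import Vale.Agent.Lib.P154Neg.B7.RayAll

/-!
# Pieces of the merge inequality
-/

namespace Vale.Agent.Lib.P154Neg.B7

open Vale.Agent.Lib.P154 Vale.Agent.Lib.P154GW Vale.Agent.Lib.P154K Tp

theorem c24 : leafOK 307 30 348 (⟨4, -2, -2, 5, -1, -4, 8, -4, -4, 12⟩ : Trg) (⟨-5, 1, 4, -10, 2, 8, -8, 4, 4, 84⟩ : Trg) Lq 12 5 67108864 Rq
    ⟨[(0, 4964532165934), (1, -28876434460947), (2, 67462159255828), (3, -79052865780653), (4, 46428932863938), (5, -10927124027177)], 10532, 12727, 14922, 16384, 16, 8⟩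
    ⟨[(0, 125928950317), (1, -533424299361), (2, 909832805946), (3, -780285144416), (4, 336195958822), (5, -58181179115)], 16676, 17700, 18725, 16384, 2, 2⟩
    ⟨[(0, 57940623643), (1, -227553058244), (2, 359561022583), (3, -285442382406), (4, 113754631372), (5, -18194185214)], 16969, 19017, 21066, 16384, 2, 2⟩ = true := by
  decide +kernel

theorem l24 : HoldsOn Lq Rq (Trg.left (Trg.right (chamber 1 1))) (Trg.right (Trg.right (Trg.right (chamberN 2 7)))) :=
  HoldsOn.congrT (by decide +kernel) (by decide +kernel)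
    (holdsOn_of_leafOK hLne hRne (by norm_num) (by norm_num) hLq (hRqg 5) hNn c24)

theorem c25 : leafOK 321 30 373 (⟨4, -2, -2, 5, -1, -4, 8, -4, -4, 12⟩ : Trg) (⟨-5, 1, 4, -2, -2, 4, -10, 2, 8, 84⟩ : Trg) Lq 12 6 67108864 Rq
    ⟨[(0, 10017773188109), (1, -67648655450917), (2, 191054434689717), (3, -288573432744477), (4, 245672121597201), (5, -111706060772000), (6, 21183921713436)], 10532, 13165, 15799, 16384, 16, 16⟩
    ⟨[(0, 632935598910), (1, -3380554721772), (2, 7570109966949), (3, -9087925138982), (4, 6163752856721), (5, -2237869359999), (6, 339617909122)], 15213, 16822, 18432, 16384, 4, 8⟩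
    ⟨[(0, 144724087576), (1, -675986939871), (2, 1323809966032), (3, -1389841791782), (4, 824379174088), (5, -261759016789), (6, 34741337802)], 17408, 19237, 21066, 16384, 2, 2⟩ = true := by
  decide +kernel

theorem l25 : HoldsOn Lq Rq (Trg.left (Trg.right (chamber 1 1))) (Trg.left (Trg.left (Trg.left (chamberN 2 7)))) :=
  HoldsOn.congrT (by decide +kernel) (by decide +kernel)
    (holdsOn_of_leafOK hLne hRne (by norm_num) (by norm_num) hLq (hRqg 6) hNn c25)

end Vale.Agent.Lib.P154Neg.B7
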