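import Vale.Agent.Lib.P154Neg.B7.RayAll

/-!
# Pieces of the merge inequality
-/

namespace Vale.Agent.Lib.P154Neg.B7

open Vale.Agent.Lib.P154 Vale.Agent.Lib.P154GW Vale.Agent.Lib.P154K Tp

theorem c26 : leafOK 299 30 333 (⟨4, -2, -2, 5, -1, -4, 8, -4, -4, 12⟩ : Trg) (⟨-5, 1, 4, 0, 0, 0, -2, -2, 4, 84⟩ : Trg) Lq 12 5 67108864 Rq
    ⟨[(0, 592640231166), (1, -2875979959749), (2, 5616285806211), (3, -5511326650485), (4, 2715588307327), (5, -537140625606)], 13458, 16384, 16385, 16384, 8, 1⟩
    ⟨[(0, 301305055121), (1, -1381785006970), (2, 2551695653459), (3, -2369374291115), (4, 1105350115952), (5, -207124417583)], 15213, 16384, 17408, 16384, 1, 1⟩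
    ⟨[(0, 178284675215), (1, -778622183485), (2, 1368964734140), (3, -1209954709716), (4, 537154316701), (5, -95759723991)], 16383, 16384, 18725, 16384, 1, 2⟩ = true := by
  decide +kernel

theorem l26 : HoldsOn Lq Rq (Trg.left (Trg.right (chamber 1 1))) (Trg.right (Trg.left (Trg.left (chamberN 2 7)))) :=
  HoldsOn.congrT (by decide +kernel) (by decide +kernel)
    (holdsOn_of_leafOK hLne hRne (by norm_num) (by norm_num) hLq (hRqg 5) hNn c26)

theorem c27 : leafOK 312 30 352 (⟨12, -6, -6, 8, -4, -4, 13, -5, -8, 24⟩ : Trg) (⟨-4, 2, 2, -5, 1, 4, -8, 4, 4, 42⟩ : Trg) Lq 12 5 67108864 Rq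
    ⟨[(0, 17491097320581), (1, -112082751999145), (2, 287897116576668), (3, -370217053915721), (4, 238188707515651), (5, -61307464676077)], 8777, 11410, 14044, 16384, 16, 16⟩
    ⟨[(0, 57940623643), (1, -227553058244), (2, 359561022583), (3, -285442382406), (4, 113754631372), (5, -18194185214)], 16969, 19017, 21066, 16384, 2, 2⟩
    ⟨[(0, 67893939090), (1, -271794811854), (2, 438095619536), (3, -355038748735), (4, 144546072690), (5, -23635466184)], 17554, 18724, 19895, 16384, 2, 2⟩ = true := by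
  decide +kernel

theorem l27 : HoldsOn Lq Rq (Trg.right (Trg.right (Trg.left (Trg.right (chamber 1 1))))) (Trg.left (Trg.right (chamberN 2 7))) :=
  HoldsOn.congrT (by decide +kernel) (by decide +kernel)
    (holdsOn_of_leafOK hLne hRne (by norm_num) (by norm_num) hLq (hRqg 5) hNn c27)

end Vale.Agent.Lib.P154Neg.B7
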