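import Vale.Agent.Lib.P154Neg.B7.RayAll

/-!
# Pieces of the merge inequality
-/

namespace Vale.Agent.Lib.P154Neg.B7

open Vale.Agent.Lib.P154 Vale.Agent.Lib.P154GW Vale.Agent.Lib.P154K Tp

theorem c28 : leafOK 317 30 372 (⟨4, -2, -2, 5, -1, -4, 8, -4, -4, 12⟩ : Trg) (⟨-5, 4, 1, -8, 4, 4, 0, 0, 0, 84⟩ : Trg) Lq 12 6 67108864 Rq
    ⟨[(0, 2966333004899), (1, -18009678949639), (2, 45775265510395), (3, -62286945433082), (4, 47820177691058), (5, -19629043554961), (6, 3363958840194)], 11702, 16384, 16385, 16384, 16, 1⟩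
    ⟨[(0, 487839458477), (1, -2549951524135), (2, 5590001375022), (3, -6571679273636), (4, 4366079748293), (5, -1553265455265), (6, 231042780108)], 16383, 16384, 18725, 16384, 1, 8⟩
    ⟨[(0, 519140527575), (1, -2728357735926), (2, 6013473659916), (3, -7107490342670), (4, 4747225785182), (5, -1697788817150), (6, 253864031937)], 16091, 16384, 18725, 16384, 1, 4⟩ = true := by
  decide +kernel

theorem l28 : HoldsOn Lq Rq (Trg.left (Trg.right (chamber 1 1))) (Trg.left (Trg.right (Trg.right (chamberNR 2 7)))) :=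
  HoldsOn.congrT (by decide +kernel) (by decide +kernel)
    (holdsOn_of_leafOK hLne hRne (by norm_num) (by norm_num) hLq (hRqg 6) hNn c28)

theorem c29 : leafOK 323 30 373 (⟨4, -2, -2, 5, -1, -4, 8, -4, -4, 12⟩ : Trg) (⟨-5, 4, 1, -10, 8, 2, -8, 4, 4, 84⟩ : Trg) Lq 12 6 67108864 Rq
    ⟨[(0, 14216268368779), (1, -99671637412827), (2, 292495022661065), (3, -459413941882498), (4, 407018552721102), (5, -192733025656824), (6, 38089395299395)], 10532, 12727, 14922, 16384, 16, 16⟩
    ⟨[(0, 138599095834), (1, -645090857393), (2, 1258921910216), (3, -1317214121464), (4, 778686980547), (5, -246438849649), (6, 32602589923)], 17554, 19310, 21066, 16384, 2, 2⟩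
    ⟨[(0, 474830515592), (1, -2473170206702), (2, 5401639106071), (3, -6325796826659), (4, 4185929885343), (5, -1483016901157), (6, 219651536464)], 15798, 17261, 18725, 16384, 2, 4⟩ = true := by
  decide +kernel

theorem l29 : HoldsOn Lq Rq (Trg.left (Trg.right (chamber 1 1))) (Trg.right (Trg.right (Trg.right (chamberNR 2 7)))) :=
  HoldsOn.congrT (by decide +kernel) (by decide +kernel)
    (holdsOn_of_leafOK hLne hRne (by norm_num) (by norm_num) hLq (hRqg 6) hNn c29)

end Vale.Agent.Lib.P154Neg.B7
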