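import Vale.Agent.Lib.P154Neg.B7.RayAll

/-!
# Pieces of the merge inequality
-/

namespace Vale.Agent.Lib.P154Neg.B7

open Vale.Agent.Lib.P154 Vale.Agent.Lib.P154GW Vale.Agent.Lib.P154K Tp

theorem c30 : leafOK 299 30 333 (⟨4, -2, -2, 5, -1, -4, 8, -4, -4, 12⟩ : Trg) (⟨-5, 4, 1, 0, 0, 0, -2, 4, -2, 84⟩ : Trg) Lq 12 5 67108864 Rq
    ⟨[(0, 592640231166), (1, -2875979959749), (2, 5616285806211), (3, -5511326650485), (4, 2715588307327), (5, -537140625606)], 13458, 16384, 16385, 16384, 8, 1⟩
    ⟨[(0, 178284675215), (1, -778622183485), (2, 1368964734140), (3, -1209954709716), (4, 537154316701), (5, -95759723991)], 16383, 16384, 18725, 16384, 1, 2⟩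
    ⟨[(0, 333534550750), (1, -1544680670818), (2, 2880924803573), (3, -2701982587058), (4, 1273314434743), (5, -241043422326)], 15213, 16384, 16970, 16384, 4, 1⟩ = true := by
  decide +kernel

theorem l30 : HoldsOn Lq Rq (Trg.left (Trg.right (chamber 1 1))) (Trg.right (Trg.left (Trg.left (chamberNR 2 7)))) :=
  HoldsOn.congrT (by decide +kernel) (by decide +kernel)
    (holdsOn_of_leafOK hLne hRne (by norm_num) (by norm_num) hLq (hRqg 5) hNn c30)

theorem c31 : leafOK 333 31 372 (⟨7, 1, -8, 2, 2, -4, 4, 4, -8, 24⟩ : Trg) (⟨-13, 5, 8, -8, 4, 4, -10, 2, 8, 84⟩ : Trg) Lq 12 6 67108864 Rq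
    ⟨[(0, 3910081426698), (1, -24612896316024), (2, 64943819376289), (3, -91849048768362), (4, 73374283386728), (5, -31371673139790), (6, 5605502603736)], 12726, 14262, 15799, 16384, 8, 16⟩
    ⟨[(0, 177252229425), (1, -845108629568), (2, 1689945942815), (3, -1812316040872), (4, 1098409390716), (5, -356495047012), (6, 48379081043)], 17554, 18871, 20188, 16384, 2, 2⟩
    ⟨[(0, 1074820122669), (1, -6037453961840), (2, 14223866451521), (3, -17971679160120), (4, 12833204206661), (5, -4907346818905), (6, 784656268905)], 14921, 16018, 17116, 16384, 2, 4⟩ = true := by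
  decide +kernel

theorem l31 : HoldsOn Lq Rq (Trg.left (Trg.right (Trg.left (chamber 1 1)))) (Trg.left (Trg.left (Trg.right (chamberN 2 7)))) :=
  HoldsOn.congrT (by decide +kernel) (by decide +kernel)
    (holdsOn_of_leafOK hLne hRne (by norm_num) (by norm_num) hLq (hRqg 6) hNn c31)

end Vale.Agent.Lib.P154Neg.B7
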