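import Vale.Agent.Lib.P154Neg.B7.RayAll

/-!
# Pieces of the merge inequality
-/

namespace Vale.Agent.Lib.P154Neg.B7

open Vale.Agent.Lib.P154 Vale.Agent.Lib.P154GW Vale.Agent.Lib.P154K Tp

theorem c32 : leafOK 318 31 334 (⟨7, 1, -8, 2, 2, -4, 4, 4, -8, 24⟩ : Trg) (⟨-13, 5, 8, -16, 8, 8, -8, 4, 4, 84⟩ : Trg) Lq 12 5 67108864 Rq
    ⟨[(0, 1638031726827), (1, -8694862490580), (2, 18562032800610), (3, -19901228164841), (4, 10707260486877), (5, -2311175916837)], 12288, 14043, 15799, 16384, 8, 8⟩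
    ⟨[(0, 48722866805), (1, -188750173483), (2, 294288386729), (3, -230596878209), (4, 90734987133), (5, -14333190467)], 17554, 19310, 21066, 16384, 2, 2⟩
    ⟨[(0, 651380677643), (1, -3198118209983), (2, 6320778500997), (3, -6279504386466), (4, 3133317331534), (5, -627786797831)], 14043, 15250, 16458, 16384, 8, 4⟩ = true := by
  decide +kernel

theorem l32 : HoldsOn Lq Rq (Trg.left (Trg.right (Trg.left (chamber 1 1)))) (Trg.right (Trg.left (Trg.right (chamberN 2 7)))) :=
  HoldsOn.congrT (by decide +kernel) (by decide +kernel)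
    (holdsOn_of_leafOK hLne hRne (by norm_num) (by norm_num) hLq (hRqg 5) hNn c32)

theorem c33 : leafOK 313 30 372 (⟨1, 1, -2, 5, -1, -4, 0, 0, 0, 12⟩ : Trg) (⟨-13, 5, 8, -16, 8, 8, -8, 4, 4, 84⟩ : Trg) Lq 12 6 67108864 Rq
    ⟨[(0, 4432894650822), (1, -27514072486809), (2, 71395615294659), (3, -99058799957917), (4, 77459183554433), (5, -32350293033950), (6, 5635539087626)], 10532, 16384, 16385, 16384, 16, 1⟩
    ⟨[(0, 302672821633), (1, -1504829883145), (2, 3134099035777), (3, -3496259643662), (4, 2201518182792), (5, -741400241091), (6, 104266836560)], 16383, 16384, 21066, 16384, 1, 4⟩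
    ⟨[(0, 746005657901), (1, -4052813561190), (2, 9234260823327), (3, -11283387720035), (4, 7791775783519), (5, -2881256991009), (6, 445483116351)], 15213, 16384, 17994, 16384, 1, 4⟩ = true := by
  decide +kernel

theorem l33 : HoldsOn Lq Rq (Trg.left (Trg.left (chamber 1 1))) (Trg.right (Trg.left (Trg.right (chamberN 2 7)))) :=
  HoldsOn.congrT (by decide +kernel) (by decide +kernel)
    (holdsOn_of_leafOK hLne hRne (by norm_num) (by norm_num) hLq (hRqg 6) hNn c33)

end Vale.Agent.Lib.P154Neg.B7
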