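import Vale.Agent.Lib.P154Neg.B7.RayAll

/-!
# Pieces of the merge inequality
-/

namespace Vale.Agent.Lib.P154Neg.B7

open Vale.Agent.Lib.P154 Vale.Agent.Lib.P154GW Vale.Agent.Lib.P154K Tp

theorem c34 : leafOK 316 31 334 (⟨7, 1, -8, 2, 2, -4, 4, 4, -8, 24⟩ : Trg) (⟨-13, 8, 5, -8, 4, 4, -10, 8, 2, 84⟩ : Trg) Lq 12 5 67108864 Rq
    ⟨[(0, 951625804173), (1, -4829657804079), (2, 9864856899236), (3, -10126348908074), (4, 5219744855831), (5, -1080154124837)], 13385, 14738, 16092, 16384, 8, 8⟩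
    ⟨[(0, 58634142327), (1, -231372837751), (2, 367550584898), (3, -293512687760), (4, 117729925105), (5, -18962752077)], 17554, 18980, 20407, 16384, 2, 2⟩
    ⟨[(0, 741959258674), (1, -3689905949176), (2, 7388178857152), (3, -7437176375868), (4, 3760730094410), (5, -763718882562)], 14043, 15067, 16092, 16384, 8, 4⟩ = true := by
  decide +kernel

theorem l34 : HoldsOn Lq Rq (Trg.left (Trg.right (Trg.left (chamber 1 1)))) (Trg.left (Trg.left (Trg.right (chamberNR 2 7)))) :=
  HoldsOn.congrT (by decide +kernel) (by decide +kernel)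
    (holdsOn_of_leafOK hLne hRne (by norm_num) (by norm_num) hLq (hRqg 5) hNn c34)

theorem c35 : leafOK 318 31 334 (⟨7, 1, -8, 2, 2, -4, 4, 4, -8, 24⟩ : Trg) (⟨-13, 8, 5, -16, 8, 8, -8, 4, 4, 84⟩ : Trg) Lq 12 5 67108864 Rq
    ⟨[(0, 1638031726827), (1, -8694862490580), (2, 18562032800610), (3, -19901228164841), (4, 10707260486877), (5, -2311175916837)], 12288, 14043, 15799, 16384, 8, 8⟩
    ⟨[(0, 48722866805), (1, -188750173483), (2, 294288386729), (3, -230596878209), (4, 90734987133), (5, -14333190467)], 17554, 19310, 21066, 16384, 2, 2⟩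
    ⟨[(0, 741959258674), (1, -3689905949176), (2, 7388178857152), (3, -7437176375868), (4, 3760730094410), (5, -763718882562)], 14043, 15067, 16092, 16384, 8, 4⟩ = true := by
  decide +kernel

theorem l35 : HoldsOn Lq Rq (Trg.left (Trg.right (Trg.left (chamber 1 1)))) (Trg.right (Trg.left (Trg.right (chamberNR 2 7)))) :=
  HoldsOn.congrT (by decide +kernel) (by decide +kernel)
    (holdsOn_of_leafOK hLne hRne (by norm_num) (by norm_num) hLq (hRqg 5) hNn c35)

end Vale.Agent.Lib.P154Neg.B7
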