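import Vale.Agent.Lib.P154Neg.B7.RayAll

/-!
# Pieces of the merge inequality
-/

namespace Vale.Agent.Lib.P154Neg.B7

open Vale.Agent.Lib.P154 Vale.Agent.Lib.P154GW Vale.Agent.Lib.P154K Tp

theorem c36 : leafOK 321 30 373 (⟨6, 0, -6, 7, 1, -8, 10, -2, -8, 24⟩ : Trg) (⟨-4, 2, 2, -5, 4, 1, -8, 4, 4, 42⟩ : Trg) Lq 12 6 67108864 Rq
    ⟨[(0, 16036370253969), (1, -113869438179865), (2, 338517555133785), (3, -538768973206477), (4, 483786044632395), (5, -232240228627551), (6, 46539898471731)], 10532, 12580, 14629, 16384, 16, 16⟩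
    ⟨[(0, 116825722857), (1, -536099626686), (2, 1031731475797), (3, -1064788971187), (4, 621018570486), (5, -193945520539), (6, 25324746635)], 18139, 19602, 21066, 16384, 2, 2⟩
    ⟨[(0, 928964648360), (1, -5144526650697), (2, 11947298815819), (3, -14877634308243), (4, 10469034410460), (5, -3944374897129), (6, 621305090755)], 14921, 16238, 17555, 16384, 4, 8⟩ = true := by
  decide +kernel

theorem l36 : HoldsOn Lq Rq (Trg.left (Trg.right (Trg.right (Trg.left (chamber 1 1))))) (Trg.left (Trg.right (chamberNR 2 7))) :=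
  HoldsOn.congrT (by decide +kernel) (by decide +kernel)
    (holdsOn_of_leafOK hLne hRne (by norm_num) (by norm_num) hLq (hRqg 6) hNn c36)

theorem c37 : leafOK 315 30 372 (⟨6, 0, -6, 2, 2, -4, 7, 1, -8, 24⟩ : Trg) (⟨-4, 2, 2, -5, 4, 1, -8, 4, 4, 42⟩ : Trg) Lq 12 6 67108864 Rq
    ⟨[(0, 4190046030546), (1, -26454299982535), (2, 69975539764288), (3, -99159863691498), (4, 79330416746033), (5, -33951106393128), (6, 6069335304035)], 12288, 14190, 16092, 16384, 2, 16⟩
    ⟨[(0, 138599095834), (1, -645090857393), (2, 1258921910216), (3, -1317214121464), (4, 778686980547), (5, -246438849649), (6, 32602589923)], 17554, 19310, 21066, 16384, 2, 2⟩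
    ⟨[(0, 1378856372379), (1, -7932696920558), (2, 19145158374001), (3, -24785310599587), (4, 18138234228946), (5, -7109682947600), (6, 1165508601319)], 14921, 15652, 16384, 16384, 1, 1⟩ = true := by
  decide +kernel

theorem l37 : HoldsOn Lq Rq (Trg.right (Trg.right (Trg.right (Trg.left (chamber 1 1))))) (Trg.left (Trg.right (chamberNR 2 7))) :=
  HoldsOn.congrT (by decide +kernel) (by decide +kernel)
    (holdsOn_of_leafOK hLne hRne (by norm_num) (by norm_num) hLq (hRqg 6) hNn c37)

end Vale.Agent.Lib.P154Neg.B7
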