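import Vale.Agent.Lib.P154Neg.B7.RayAll

/-!
# Pieces of the merge inequality
-/

namespace Vale.Agent.Lib.P154Neg.B7

open Vale.Agent.Lib.P154 Vale.Agent.Lib.P154GW Vale.Agent.Lib.P154K Tp

theorem c38 : leafOK 351 31 374 (⟨29, -13, -16, 24, -12, -12, 26, -10, -16, 48⟩ : Trg) (⟨-4, 2, 2, -5, 4, 1, -8, 4, 4, 42⟩ : Trg) Lq 12 6 67108864 Rq
    ⟨[(0, 141754915958762), (1, -1205503671269405), (2, 4281899711153941), (3, -8123884124891888), (4, 8677187698590064), (5, -4944610790272715), (6, 1173919155030679)], 7899, 10386, 12874, 16384, 16, 16⟩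
    ⟨[(0, 116825722857), (1, -536099626686), (2, 1031731475797), (3, -1064788971187), (4, 621018570486), (5, -193945520539), (6, 25324746635)], 18139, 19602, 21066, 16384, 2, 2⟩
    ⟨[(0, 231626394618), (1, -1129133689094), (2, 2307763130722), (3, -2528646849737), (4, 1565329510607), (5, -518722507084), (6, 71851097840)], 16676, 18432, 20188, 16384, 2, 2⟩ = true := by
  decide +kernel

theorem l38 : HoldsOn Lq Rq (Trg.left (Trg.left (Trg.right (Trg.left (Trg.right (chamber 1 1)))))) (Trg.left (Trg.right (chamberNR 2 7))) :=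
  HoldsOn.congrT (by decide +kernel) (by decide +kernel)
    (holdsOn_of_leafOK hLne hRne (by norm_num) (by norm_num) hLq (hRqg 6) hNn c38)

theorem c39 : leafOK 351 31 374 (⟨29, -13, -16, 24, -12, -12, 26, -10, -16, 48⟩ : Trg) (⟨-4, 2, 2, -5, 1, 4, -8, 4, 4, 42⟩ : Trg) Lq 12 6 67108864 Rq
    ⟨[(0, 141754915958762), (1, -1205503671269405), (2, 4281899711153941), (3, -8123884124891888), (4, 8677187698590064), (5, -4944610790272715), (6, 1173919155030679)], 7899, 10386, 12874, 16384, 16, 16⟩
    ⟨[(0, 151204368149), (1, -708777968187), (2, 1392889697522), (3, -1467393902121), (4, 873313202217), (5, -278213423065), (6, 37044904811)], 17261, 19163, 21066, 16384, 2, 2⟩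
    ⟨[(0, 152757787988), (1, -718683453768), (2, 1418160385790), (3, -1500817205968), (4, 897662858744), (5, -287522222248), (6, 38508631378)], 17846, 19126, 20407, 16384, 1, 1⟩ = true := by
  decide +kernel

theorem l39 : HoldsOn Lq Rq (Trg.left (Trg.left (Trg.right (Trg.left (Trg.right (chamber 1 1)))))) (Trg.left (Trg.right (chamberN 2 7))) :=
  HoldsOn.congrT (by decide +kernel) (by decide +kernel)
    (holdsOn_of_leafOK hLne hRne (by norm_num) (by norm_num) hLq (hRqg 6) hNn c39)

end Vale.Agent.Lib.P154Neg.B7
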