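import Vale.Agent.Lib.P154Neg.B7.RayAll

/-!
# Pieces of the merge inequality
-/

namespace Vale.Agent.Lib.P154Neg.B7

open Vale.Agent.Lib.P154 Vale.Agent.Lib.P154GW Vale.Agent.Lib.P154K Tp

theorem c4 : leafOK 298 29 372 (⟨4, -2, -2, 0, 0, 0, 5, -1, -4, 12⟩ : Trg) (⟨-4, 2, 2, -5, 1, 4, -8, 4, 4, 42⟩ : Trg) Lq 12 6 67108864 Rq
    ⟨[(0, 4432894650822), (1, -27514072486809), (2, 71395615294659), (3, -99058799957917), (4, 77459183554433), (5, -32350293033950), (6, 5635539087626)], 10532, 16384, 16385, 16384, 16, 1⟩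
    ⟨[(0, 302672821633), (1, -1504829883145), (2, 3134099035777), (3, -3496259643662), (4, 2201518182792), (5, -741400241091), (6, 104266836560)], 16383, 16384, 21066, 16384, 1, 4⟩
    ⟨[(0, 487839458477), (1, -2549951524135), (2, 5590001375022), (3, -6571679273636), (4, 4366079748293), (5, -1553265455265), (6, 231042780108)], 16383, 16384, 18725, 16384, 1, 8⟩ = true := by
  decide +kernel

theorem l4 : HoldsOn Lq Rq (Trg.right (Trg.right (chamber 1 1))) (Trg.left (Trg.right (chamberN 2 7))) :=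
  HoldsOn.congrT (by decide +kernel) (by decide +kernel)
    (holdsOn_of_leafOK hLne hRne (by norm_num) (by norm_num) hLq (hRqg 6) hNn c4)

theorem c5 : leafOK 293 29 372 (⟨4, -2, -2, 0, 0, 0, 5, -1, -4, 12⟩ : Trg) (⟨-4, 2, 2, 0, 0, 0, -5, 1, 4, 42⟩ : Trg) Lq 12 6 67108864 Rq
    ⟨[(0, 2473306009184), (1, -14842052725739), (2, 37307068747001), (3, -50229121692848), (4, 38175023081360), (5, -15519387647901), (6, 2635231337807)], 12288, 16384, 16385, 16384, 16, 1⟩
    ⟨[(0, 487839458477), (1, -2549951524135), (2, 5590001375022), (3, -6571679273636), (4, 4366079748293), (5, -1553265455265), (6, 231042780108)], 16383, 16384, 18725, 16384, 1, 8⟩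
    ⟨[(0, 487839458477), (1, -2549951524135), (2, 5590001375022), (3, -6571679273636), (4, 4366079748293), (5, -1553265455265), (6, 231042780108)], 16383, 16384, 18725, 16384, 1, 8⟩ = true := by
  decide +kernel

theorem l5 : HoldsOn Lq Rq (Trg.right (Trg.right (chamber 1 1))) (Trg.right (Trg.right (chamberN 2 7))) :=
  HoldsOn.congrT (by decide +kernel) (by decide +kernel)
    (holdsOn_of_leafOK hLne hRne (by norm_num) (by norm_num) hLq (hRqg 6) hNn c5)

end Vale.Agent.Lib.P154Neg.B7
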