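import Vale.Agent.Lib.P154Neg.B7.RayAll

/-!
# Pieces of the merge inequality
-/

namespace Vale.Agent.Lib.P154Neg.B7

open Vale.Agent.Lib.P154 Vale.Agent.Lib.P154GW Vale.Agent.Lib.P154K Tp

theorem c40 : leafOK 293 30 334 (⟨1, 1, -2, 5, -1, -4, 0, 0, 0, 12⟩ : Trg) (⟨-5, 1, 4, -2, -2, 4, -10, 2, 8, 84⟩ : Trg) Lq 12 5 67108864 Rq
    ⟨[(0, 823196023170), (1, -4079258489378), (2, 8126519992155), (3, -8127915241009), (4, 4078398089039), (5, -820873265113)], 12288, 16384, 16385, 16384, 8, 1⟩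
    ⟨[(0, 200398023701), (1, -884978830261), (2, 1573484124360), (3, -1406503594117), (4, 631553759517), (5, -113886374336)], 16091, 16384, 18432, 16384, 1, 2⟩
    ⟨[(0, 200398023701), (1, -884978830261), (2, 1573484124360), (3, -1406503594117), (4, 631553759517), (5, -113886374336)], 16091, 16384, 18432, 16384, 1, 2⟩ = true := by
  decide +kernel

theorem l40 : HoldsOn Lq Rq (Trg.left (Trg.left (chamber 1 1))) (Trg.left (Trg.left (Trg.left (chamberN 2 7)))) :=
  HoldsOn.congrT (by decide +kernel) (by decide +kernel)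
    (holdsOn_of_leafOK hLne hRne (by norm_num) (by norm_num) hLq (hRqg 5) hNn c40)

theorem c41 : leafOK 291 30 333 (⟨1, 1, -2, 5, -1, -4, 0, 0, 0, 12⟩ : Trg) (⟨-5, 1, 4, 0, 0, 0, -2, -2, 4, 84⟩ : Trg) Lq 12 5 67108864 Rq
    ⟨[(0, 473726397073), (1, -2261188204552), (2, 4345428576616), (3, -4198367343476), (4, 2037643531771), (5, -397175848568)], 14336, 16384, 16385, 16384, 8, 1⟩
    ⟨[(0, 249135792337), (1, -1124272895855), (2, 2043328452636), (3, -1867652517227), (4, 857806040105), (5, -158277763132)], 16091, 16384, 17408, 16384, 1, 4⟩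
    ⟨[(0, 219929313482), (1, -980737958795), (2, 1761209778242), (3, -1590441043835), (4, 721631762538), (5, -131524742768)], 16237, 16384, 17847, 16384, 1, 2⟩ = true := by
  decide +kernel

theorem l41 : HoldsOn Lq Rq (Trg.left (Trg.left (chamber 1 1))) (Trg.right (Trg.left (Trg.left (chamberN 2 7)))) :=
  HoldsOn.congrT (by decide +kernel) (by decide +kernel)
    (holdsOn_of_leafOK hLne hRne (by norm_num) (by norm_num) hLq (hRqg 5) hNn c41)

end Vale.Agent.Lib.P154Neg.B7
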