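import Vale.Agent.Lib.P154Neg.B7.RayAll

/-!
# Pieces of the merge inequality
-/

namespace Vale.Agent.Lib.P154Neg.B7

open Vale.Agent.Lib.P154 Vale.Agent.Lib.P154GW Vale.Agent.Lib.P154K Tp

theorem c42 : leafOK 308 30 371 (⟨1, 1, -2, 5, -1, -4, 0, 0, 0, 12⟩ : Trg) (⟨-5, 1, 4, -8, 4, 4, 0, 0, 0, 84⟩ : Trg) Lq 12 6 67108864 Rq
    ⟨[(0, 1763905055348), (1, -10332354933057), (2, 25373386542158), (3, -33402660195399), (4, 24841762780746), (5, -9889605960042), (6, 1645633819110)], 13458, 16384, 16385, 16384, 16, 1⟩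
    ⟨[(0, 487839458477), (1, -2549951524135), (2, 5590001375022), (3, -6571679273636), (4, 4366079748293), (5, -1553265455265), (6, 231042780108)], 16383, 16384, 18725, 16384, 1, 8⟩
    ⟨[(0, 747710925582), (1, -4069778553883), (2, 9293072680812), (3, -11383089149043), (4, 7882079824979), (5, -2923414859466), (6, 453486239883)], 15798, 16384, 17408, 16384, 1, 4⟩ = true := by
  decide +kernel

theorem l42 : HoldsOn Lq Rq (Trg.left (Trg.left (chamber 1 1))) (Trg.left (Trg.right (Trg.right (chamberN 2 7)))) :=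
  HoldsOn.congrT (by decide +kernel) (by decide +kernel)
    (holdsOn_of_leafOK hLne hRne (by norm_num) (by norm_num) hLq (hRqg 6) hNn c42)

theorem c43 : leafOK 322 30 373 (⟨6, 0, -6, 7, 1, -8, 10, -2, -8, 24⟩ : Trg) (⟨-4, 2, 2, -5, 1, 4, -8, 4, 4, 42⟩ : Trg) Lq 12 6 67108864 Rq
    ⟨[(0, 16036370253969), (1, -113869438179865), (2, 338517555133785), (3, -538768973206477), (4, 483786044632395), (5, -232240228627551), (6, 46539898471731)], 10532, 12580, 14629, 16384, 16, 16⟩
    ⟨[(0, 116825722857), (1, -536099626686), (2, 1031731475797), (3, -1064788971187), (4, 621018570486), (5, -193945520539), (6, 25324746635)], 18139, 19602, 21066, 16384, 2, 2⟩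
    ⟨[(0, 520141552635), (1, -2733470260548), (2, 6024330978093), (3, -7119780119787), (4, 4755062170503), (5, -1700465056978), (6, 254247844974)], 15798, 17115, 18432, 16384, 2, 4⟩ = true := by
  decide +kernel

theorem l43 : HoldsOn Lq Rq (Trg.left (Trg.right (Trg.right (Trg.left (chamber 1 1))))) (Trg.left (Trg.right (chamberN 2 7))) :=
  HoldsOn.congrT (by decide +kernel) (by decide +kernel)
    (holdsOn_of_leafOK hLne hRne (by norm_num) (by norm_num) hLq (hRqg 6) hNn c43)

end Vale.Agent.Lib.P154Neg.B7
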