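import Vale.Agent.Lib.P154Neg.B7.RayAll

/-!
# Pieces of the merge inequality
-/

namespace Vale.Agent.Lib.P154Neg.B7

open Vale.Agent.Lib.P154 Vale.Agent.Lib.P154GW Vale.Agent.Lib.P154K Tp

theorem c44 : leafOK 316 30 372 (⟨6, 0, -6, 2, 2, -4, 7, 1, -8, 24⟩ : Trg) (⟨-4, 2, 2, -5, 1, 4, -8, 4, 4, 42⟩ : Trg) Lq 12 6 67108864 Rq
    ⟨[(0, 4674235341163), (1, -29842449819101), (2, 79838734010215), (3, -114449459634719), (4, 92641945015845), (5, -40122683230221), (6, 7259748439778)], 12288, 14043, 15799, 16384, 8, 16⟩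
    ⟨[(0, 138599095834), (1, -645090857393), (2, 1258921910216), (3, -1317214121464), (4, 778686980547), (5, -246438849649), (6, 32602589923)], 17554, 19310, 21066, 16384, 2, 2⟩
    ⟨[(0, 924331799027), (1, -5123266775996), (2, 11910706468838), (3, -14851174227256), (4, 10466101805634), (5, -3950022859238), (6, 623390897919)], 15213, 16237, 17262, 16384, 2, 4⟩ = true := by
  decide +kernel

theorem l44 : HoldsOn Lq Rq (Trg.right (Trg.right (Trg.right (Trg.left (chamber 1 1))))) (Trg.left (Trg.right (chamberN 2 7))) :=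
  HoldsOn.congrT (by decide +kernel) (by decide +kernel)
    (holdsOn_of_leafOK hLne hRne (by norm_num) (by norm_num) hLq (hRqg 6) hNn c44)

theorem c45 : leafOK 331 32 330 (⟨29, -13, -16, 32, -16, -16, 24, -12, -12, 48⟩ : Trg) (⟨-13, 8, 5, -8, 4, 4, -10, 8, 2, 84⟩ : Trg) Lq 12 4 67108864 Rq
    ⟨[(0, 9359447604220), (1, -50644786040323), (2, 103073247727922), (3, -93430823957574), (4, 31804797791088)], 8777, 10825, 12874, 16384, 1, 16⟩
    ⟨[(0, 12807800879), (1, -39104487026), (2, 45054517984), (3, -23192581040), (4, 4496958506)], 18139, 19602, 21066, 16384, 1, 2⟩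
    ⟨[(0, 28705204417), (1, -94455018090), (2, 117314565285), (3, -65114757317), (4, 13616525648)], 17115, 18212, 19310, 16384, 2, 2⟩ = true := by
  decide +kernel

theorem l45 : HoldsOn Lq Rq (Trg.right (Trg.left (Trg.right (Trg.left (Trg.right (chamber 1 1)))))) (Trg.left (Trg.left (Trg.right (chamberNR 2 7)))) :=
  HoldsOn.congrT (by decide +kernel) (by decide +kernel)
    (holdsOn_of_leafOK hLne hRne (by norm_num) (by norm_num) hLq (hRqg 4) hNn c45)

end Vale.Agent.Lib.P154Neg.B7
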