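import Vale.Agent.Lib.P154Neg.B7.RayAll

/-!
# Pieces of the merge inequality
-/

namespace Vale.Agent.Lib.P154Neg.B7

open Vale.Agent.Lib.P154 Vale.Agent.Lib.P154GW Vale.Agent.Lib.P154K Tp

theorem c46 : leafOK 331 32 330 (⟨29, -13, -16, 32, -16, -16, 24, -12, -12, 48⟩ : Trg) (⟨-13, 5, 8, -8, 4, 4, -10, 2, 8, 84⟩ : Trg) Lq 12 4 67108864 Rq
    ⟨[(0, 9359447604220), (1, -50644786040323), (2, 103073247727922), (3, -93430823957574), (4, 31804797791088)], 8777, 10825, 12874, 16384, 1, 16⟩
    ⟨[(0, 26572497119), (1, -86836876063), (2, 107114290375), (3, -59047299579), (4, 12263679246)], 17261, 18340, 19420, 16384, 2, 2⟩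
    ⟨[(0, 12807800879), (1, -39104487026), (2, 45054517984), (3, -23192581040), (4, 4496958506)], 18139, 19602, 21066, 16384, 1, 2⟩ = true := by
  decide +kernel

theorem l46 : HoldsOn Lq Rq (Trg.right (Trg.left (Trg.right (Trg.left (Trg.right (chamber 1 1)))))) (Trg.left (Trg.left (Trg.right (chamberN 2 7)))) :=
  HoldsOn.congrT (by decide +kernel) (by decide +kernel)
    (holdsOn_of_leafOK hLne hRne (by norm_num) (by norm_num) hLq (hRqg 4) hNn c46)

theorem c47 : leafOK 331 31 371 (⟨7, 1, -8, 2, 2, -4, 4, 4, -8, 24⟩ : Trg) (⟨-5, 1, 4, -10, 2, 8, -8, 4, 4, 84⟩ : Trg) Lq 12 6 67108864 Rq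
    ⟨[(0, 3282866931771), (1, -20373588214345), (2, 53015048199863), (3, -73962307946827), (4, 58300284618330), (5, -24602010324888), (6, 4339774507453)], 13165, 14482, 15799, 16384, 8, 16⟩
    ⟨[(0, 261306605717), (1, -1291416128719), (2, 2677109250473), (3, -2976536749635), (4, 1870551989614), (5, -629551466137), (6, 88603577074)], 17115, 18212, 19310, 16384, 2, 1⟩
    ⟨[(0, 970271089737), (1, -5403063528253), (2, 12620516261498), (3, -15811220785278), (4, 11196260920581), (5, -4246092574941), (6, 673395725544)], 15213, 16164, 17116, 16384, 2, 2⟩ = true := by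
  decide +kernel

theorem l47 : HoldsOn Lq Rq (Trg.left (Trg.right (Trg.left (chamber 1 1)))) (Trg.right (Trg.right (Trg.right (chamberN 2 7)))) :=
  HoldsOn.congrT (by decide +kernel) (by decide +kernel)
    (holdsOn_of_leafOK hLne hRne (by norm_num) (by norm_num) hLq (hRqg 6) hNn c47)

end Vale.Agent.Lib.P154Neg.B7
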