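import Vale.Agent.Lib.P154Neg.B7.RayAll

/-!
# Pieces of the merge inequality
-/

namespace Vale.Agent.Lib.P154Neg.B7

open Vale.Agent.Lib.P154 Vale.Agent.Lib.P154GW Vale.Agent.Lib.P154K Tp

theorem c48 : leafOK 319 30 373 (⟨13, -5, -8, 8, -4, -4, 10, -2, -8, 24⟩ : Trg) (⟨-1, 2, -1, -2, 4, -2, -5, 4, 1, 42⟩ : Trg) Lq 12 6 67108864 Rq
    ⟨[(0, 5027028749397), (1, -32182097126981), (2, 86280120689472), (3, -123871603385330), (4, 100363553331552), (5, -43483459447546), (6, 7866525648485)], 11849, 13970, 16092, 16384, 16, 16⟩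
    ⟨[(0, 156593548623), (1, -737647655044), (2, 1457154956214), (3, -1543497512070), (4, 923885757507), (5, -296096272853), (6, 39674025154)], 17554, 19090, 20627, 16384, 2, 2⟩
    ⟨[(0, 1549818442450), (1, -8980908817469), (2, 21819979225132), (3, -28421398227628), (4, 20915252147182), (5, -8239452296204), (6, 1356776637655)], 14043, 15506, 16970, 16384, 8, 8⟩ = true := by
  decide +kernel

theorem l48 : HoldsOn Lq Rq (Trg.left (Trg.left (Trg.right (chamber 1 1)))) (Trg.right (Trg.left (chamberNR 2 7))) :=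
  HoldsOn.congrT (by decide +kernel) (by decide +kernel)
    (holdsOn_of_leafOK hLne hRne (by norm_num) (by norm_num) hLq (hRqg 6) hNn c48)

theorem c49 : leafOK 322 30 373 (⟨13, -5, -8, 16, -8, -8, 8, -4, -4, 24⟩ : Trg) (⟨-1, 2, -1, -2, 4, -2, -5, 4, 1, 42⟩ : Trg) Lq 12 6 67108864 Rq
    ⟨[(0, 10017773188109), (1, -67648655450917), (2, 191054434689717), (3, -288573432744477), (4, 245672121597201), (5, -111706060772000), (6, 21183921713436)], 10532, 13165, 15799, 16384, 16, 16⟩
    ⟨[(0, 138599095834), (1, -645090857393), (2, 1258921910216), (3, -1317214121464), (4, 778686980547), (5, -246438849649), (6, 32602589923)], 17554, 19310, 21066, 16384, 2, 2⟩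
    ⟨[(0, 1270818279831), (1, -7219725287380), (2, 17192120095534), (3, -21941870076276), (4, 15817006373849), (5, -6102025261401), (6, 983742984907)], 14043, 15799, 17555, 16384, 4, 8⟩ = true := by
  decide +kernel

theorem l49 : HoldsOn Lq Rq (Trg.right (Trg.left (Trg.right (chamber 1 1)))) (Trg.right (Trg.left (chamberNR 2 7))) :=
  HoldsOn.congrT (by decide +kernel) (by decide +kernel)
    (holdsOn_of_leafOK hLne hRne (by norm_num) (by norm_num) hLq (hRqg 6) hNn c49)

end Vale.Agent.Lib.P154Neg.B7
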