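import Vale.Agent.Lib.P154Neg.B7.RayAll

/-!
# Pieces of the merge inequality
-/

namespace Vale.Agent.Lib.P154Neg.B7

open Vale.Agent.Lib.P154 Vale.Agent.Lib.P154GW Vale.Agent.Lib.P154K Tp

theorem c50 : leafOK 336 31 373 (⟨13, -5, -8, 8, -4, -4, 10, -2, -8, 24⟩ : Trg) (⟨-5, 4, 1, -2, 4, -2, -10, 8, 2, 84⟩ : Trg) Lq 12 6 67108864 Rq
    ⟨[(0, 5027028749397), (1, -32182097126981), (2, 86280120689472), (3, -123871603385330), (4, 100363553331552), (5, -43483459447546), (6, 7866525648485)], 11849, 13970, 16092, 16384, 16, 16⟩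
    ⟨[(0, 156593548623), (1, -737647655044), (2, 1457154956214), (3, -1543497512070), (4, 923885757507), (5, -296096272853), (6, 39674025154)], 17554, 19090, 20627, 16384, 2, 2⟩
    ⟨[(0, 1018793067950), (1, -5699876857687), (2, 13376808002740), (3, -16838684258983), (4, 11981204381703), (5, -4565821267310), (6, 727644040469)], 15213, 16091, 16970, 16384, 2, 2⟩ = true := by
  decide +kernel

theorem l50 : HoldsOn Lq Rq (Trg.left (Trg.left (Trg.right (chamber 1 1)))) (Trg.left (Trg.left (Trg.left (chamberNR 2 7)))) :=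
  HoldsOn.congrT (by decide +kernel) (by decide +kernel)
    (holdsOn_of_leafOK hLne hRne (by norm_num) (by norm_num) hLq (hRqg 6) hNn c50)

theorem c51 : leafOK 340 31 373 (⟨13, -5, -8, 16, -8, -8, 8, -4, -4, 24⟩ : Trg) (⟨-5, 4, 1, -2, 4, -2, -10, 8, 2, 84⟩ : Trg) Lq 12 6 67108864 Rq
    ⟨[(0, 10017773188109), (1, -67648655450917), (2, 191054434689717), (3, -288573432744477), (4, 245672121597201), (5, -111706060772000), (6, 21183921713436)], 10532, 13165, 15799, 16384, 16, 16⟩
    ⟨[(0, 138599095834), (1, -645090857393), (2, 1258921910216), (3, -1317214121464), (4, 778686980547), (5, -246438849649), (6, 32602589923)], 17554, 19310, 21066, 16384, 2, 2⟩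
    ⟨[(0, 839334124880), (1, -4608911803446), (2, 10614335461807), (3, -13109301756505), (4, 9150125201590), (5, -3419991841750), (6, 534477722615)], 15213, 16384, 17555, 16384, 2, 4⟩ = true := by
  decide +kernel

theorem l51 : HoldsOn Lq Rq (Trg.right (Trg.left (Trg.right (chamber 1 1)))) (Trg.left (Trg.left (Trg.left (chamberNR 2 7)))) :=
  HoldsOn.congrT (by decide +kernel) (by decide +kernel)
    (holdsOn_of_leafOK hLne hRne (by norm_num) (by norm_num) hLq (hRqg 6) hNn c51)

end Vale.Agent.Lib.P154Neg.B7
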