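import Vale.Agent.Lib.P154Neg.B7.RayAll

/-!
# Pieces of the merge inequality
-/

namespace Vale.Agent.Lib.P154Neg.B7

open Vale.Agent.Lib.P154 Vale.Agent.Lib.P154GW Vale.Agent.Lib.P154K Tp

theorem c54 : leafOK 337 32 330 (⟨29, -13, -16, 32, -16, -16, 24, -12, -12, 48⟩ : Trg) (⟨-12, 6, 6, -13, 5, 8, -16, 8, 8, 84⟩ : Trg) Lq 12 4 67108864 Rq
    ⟨[(0, 69610198431111), (1, -444444862661746), (2, 1065865604122024), (3, -1137065817341878), (4, 455030358450670)], 7021, 9069, 11118, 16384, 1, 16⟩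
    ⟨[(0, 11311919112), (1, -34192641704), (2, 39009933281), (3, -19888506619), (4, 3820080593)], 18578, 19822, 21066, 16384, 1, 2⟩
    ⟨[(0, 10008357331), (1, -29947771951), (2, 33828527222), (3, -17078753411), (4, 3248942943)], 19017, 20041, 21066, 16384, 1, 1⟩ = true := by
  decide +kernel

theorem l54 : HoldsOn Lq Rq (Trg.right (Trg.left (Trg.right (Trg.left (Trg.right (chamber 1 1)))))) (Trg.left (Trg.right (Trg.left (Trg.right (chamberN 2 7))))) :=
  HoldsOn.congrT (by decide +kernel) (by decide +kernel)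
    (holdsOn_of_leafOK hLne hRne (by norm_num) (by norm_num) hLq (hRqg 4) hNn c54)

theorem c55 : leafOK 332 32 330 (⟨29, -13, -16, 32, -16, -16, 24, -12, -12, 48⟩ : Trg) (⟨-12, 6, 6, -8, 4, 4, -13, 5, 8, 84⟩ : Trg) Lq 12 4 67108864 Rq
    ⟨[(0, 9359447604220), (1, -50644786040323), (2, 103073247727922), (3, -93430823957574), (4, 31804797791088)], 8777, 10825, 12874, 16384, 1, 16⟩
    ⟨[(0, 17816777806), (1, -56202963959), (2, 66931712800), (3, -35627456344), (4, 7146214005)], 18139, 19017, 19895, 16384, 1, 2⟩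
    ⟨[(0, 12807800879), (1, -39104487026), (2, 45054517984), (3, -23192581040), (4, 4496958506)], 18139, 19602, 21066, 16384, 1, 2⟩ = true := by
  decide +kernel

theorem l55 : HoldsOn Lq Rq (Trg.right (Trg.left (Trg.right (Trg.left (Trg.right (chamber 1 1)))))) (Trg.right (Trg.right (Trg.left (Trg.right (chamberN 2 7))))) :=
  HoldsOn.congrT (by decide +kernel) (by decide +kernel)
    (holdsOn_of_leafOK hLne hRne (by norm_num) (by norm_num) hLq (hRqg 4) hNn c55)

end Vale.Agent.Lib.P154Neg.B7
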