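import Vale.Agent.Lib.P154Neg.B7.RayAll

/-!
# Pieces of the merge inequality
-/

namespace Vale.Agent.Lib.P154Neg.B7

open Vale.Agent.Lib.P154 Vale.Agent.Lib.P154GW Vale.Agent.Lib.P154K Tp

theorem c56 : leafOK 308 30 371 (⟨1, 1, -2, 5, -1, -4, 0, 0, 0, 12⟩ : Trg) (⟨-5, 4, 1, -8, 4, 4, 0, 0, 0, 84⟩ : Trg) Lq 12 6 67108864 Rq
    ⟨[(0, 1763905055348), (1, -10332354933057), (2, 25373386542158), (3, -33402660195399), (4, 24841762780746), (5, -9889605960042), (6, 1645633819110)], 13458, 16384, 16385, 16384, 16, 1⟩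
    ⟨[(0, 487839458477), (1, -2549951524135), (2, 5590001375022), (3, -6571679273636), (4, 4366079748293), (5, -1553265455265), (6, 231042780108)], 16383, 16384, 18725, 16384, 1, 8⟩
    ⟨[(0, 830021446565), (1, -4562769744627), (2, 10523252538638), (3, -13020108183004), (4, 9107311874655), (5, -3412448460417), (6, 534807637054)], 15798, 16384, 16970, 16384, 2, 2⟩ = true := by
  decide +kernel

theorem l56 : HoldsOn Lq Rq (Trg.left (Trg.left (chamber 1 1))) (Trg.left (Trg.right (Trg.right (chamberNR 2 7)))) :=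
  HoldsOn.congrT (by decide +kernel) (by decide +kernel)
    (holdsOn_of_leafOK hLne hRne (by norm_num) (by norm_num) hLq (hRqg 6) hNn c56)

theorem c57 : leafOK 309 30 371 (⟨1, 1, -2, 5, -1, -4, 0, 0, 0, 12⟩ : Trg) (⟨-5, 4, 1, -10, 8, 2, -8, 4, 4, 84⟩ : Trg) Lq 12 6 67108864 Rq
    ⟨[(0, 1914850786867), (1, -11285598328108), (2, 27879760921742), (3, -36914741733238), (4, 27608009824672), (5, -11050810366572), (6, 1848596003501)], 13165, 16384, 16385, 16384, 16, 1⟩
    ⟨[(0, 359724593935), (1, -1822092207066), (2, 3868192093955), (3, -4400880990487), (4, 2827670436867), (5, -972211955685), (6, 139665137345)], 16383, 16384, 20188, 16384, 1, 4⟩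
    ⟨[(0, 956301351441), (1, -5321373245256), (2, 12421876711878), (3, -15554167490292), (4, 11009581260805), (5, -4173967929924), (6, 661816450212)], 15213, 16384, 16970, 16384, 4, 4⟩ = true := by
  decide +kernel

theorem l57 : HoldsOn Lq Rq (Trg.left (Trg.left (chamber 1 1))) (Trg.right (Trg.right (Trg.right (chamberNR 2 7)))) :=
  HoldsOn.congrT (by decide +kernel) (by decide +kernel)
    (holdsOn_of_leafOK hLne hRne (by norm_num) (by norm_num) hLq (hRqg 6) hNn c57)

end Vale.Agent.Lib.P154Neg.B7
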