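import Vale.Agent.Lib.P154Neg.B7.RayAll

/-!
# Pieces of the merge inequality
-/

namespace Vale.Agent.Lib.P154Neg.B7

open Vale.Agent.Lib.P154 Vale.Agent.Lib.P154GW Vale.Agent.Lib.P154K Tp

theorem c58 : leafOK 332 31 372 (⟨5, -1, -4, 2, 2, -4, 10, -2, -8, 24⟩ : Trg) (⟨-5, 1, 4, -10, 2, 8, -8, 4, 4, 84⟩ : Trg) Lq 12 6 67108864 Rq
    ⟨[(0, 4674235341163), (1, -29842449819101), (2, 79838734010215), (3, -114449459634719), (4, 92641945015845), (5, -40122683230221), (6, 7259748439778)], 12288, 14043, 15799, 16384, 8, 16⟩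
    ⟨[(0, 333345119958), (1, -1685157334357), (2, 3573606760484), (3, -4064939565033), (4, 2613668082515), (5, -900088441494), (6, 129632480209)], 16896, 17810, 18725, 16384, 1, 1⟩
    ⟨[(0, 520141552635), (1, -2733470260548), (2, 6024330978093), (3, -7119780119787), (4, 4755062170503), (5, -1700465056978), (6, 254247844974)], 15798, 17115, 18432, 16384, 2, 4⟩ = true := by
  decide +kernel

theorem l58 : HoldsOn Lq Rq (Trg.left (Trg.left (Trg.left (chamber 1 1)))) (Trg.right (Trg.right (Trg.right (chamberN 2 7)))) :=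
  HoldsOn.congrT (by decide +kernel) (by decide +kernel)
    (holdsOn_of_leafOK hLne hRne (by norm_num) (by norm_num) hLq (hRqg 6) hNn c58)

theorem c59 : leafOK 292 31 312 (⟨5, -1, -4, 0, 0, 0, 2, 2, -4, 24⟩ : Trg) (⟨-5, 1, 4, -10, 2, 8, -8, 4, 4, 84⟩ : Trg) Lq 12 4 67108864 Rq
    ⟨[(0, 142156968758), (1, -540180843288), (2, 774671540178), (3, -496421792564), (4, 119841235780)], 14336, 16384, 16385, 16384, 8, 1⟩
    ⟨[(0, 68964438916), (1, -246027425257), (2, 331342298499), (3, -199453443931), (4, 45241240637)], 16383, 16384, 17847, 16384, 1, 4⟩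
    ⟨[(0, 83750312997), (1, -304190363293), (2, 417127406822), (3, -255678342793), (4, 59058095131)], 15798, 16384, 17408, 16384, 1, 2⟩ = true := by
  decide +kernel

theorem l59 : HoldsOn Lq Rq (Trg.right (Trg.left (Trg.left (chamber 1 1)))) (Trg.right (Trg.right (Trg.right (chamberN 2 7)))) :=
  HoldsOn.congrT (by decide +kernel) (by decide +kernel)
    (holdsOn_of_leafOK hLne hRne (by norm_num) (by norm_num) hLq (hRqg 4) hNn c59)

end Vale.Agent.Lib.P154Neg.B7
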