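import Vale.Agent.Lib.P154Neg.B7.RayAll

/-!
# Pieces of the merge inequality
-/

namespace Vale.Agent.Lib.P154Neg.B7

open Vale.Agent.Lib.P154 Vale.Agent.Lib.P154GW Vale.Agent.Lib.P154K Tp

theorem c6 : leafOK 290 29 353 (⟨1, 1, -2, 5, -1, -4, 0, 0, 0, 12⟩ : Trg) (⟨-1, 2, -1, -5, 4, 1, 0, 0, 0, 42⟩ : Trg) Lq 12 6 67108864 Rq
    ⟨[(0, 1764215153198), (1, -10315969593847), (2, 25282681471834), (3, -33209652987906), (4, 24638465710577), (5, -9783000444037), (6, 1623327799045)], 13165, 16384, 16677, 16384, 4, 1⟩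
    ⟨[(0, 359724593935), (1, -1822092207066), (2, 3868192093955), (3, -4400880990487), (4, 2827670436867), (5, -972211955685), (6, 139665137345)], 16383, 16384, 20188, 16384, 1, 4⟩
    ⟨[(0, 1108134969065), (1, -6251809725547), (2, 14797210957676), (3, -18787815817159), (4, 13485381241482), (5, -5184779198158), (6, 833744681505)], 15213, 16384, 16385, 16384, 8, 1⟩ = true := by
  decide +kernel

theorem l6 : HoldsOn Lq Rq (Trg.left (Trg.left (chamber 1 1))) (Trg.left (Trg.left (chamberNR 2 7))) :=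
  HoldsOn.congrT (by decide +kernel) (by decide +kernel)
    (holdsOn_of_leafOK hLne hRne (by norm_num) (by norm_num) hLq (hRqg 6) hNn c6)

theorem c7 : leafOK 276 29 333 (⟨1, 1, -2, 5, -1, -4, 0, 0, 0, 12⟩ : Trg) (⟨-1, 2, -1, -2, 4, -2, -5, 4, 1, 42⟩ : Trg) Lq 12 5 67108864 Rq
    ⟨[(0, 550603721170), (1, -2645979879101), (2, 5115228679785), (3, -4967769221986), (4, 2421827056995), (5, -473843247999)], 13165, 16384, 16970, 16384, 4, 1⟩
    ⟨[(0, 134582104708), (1, -570246743243), (2, 971905565527), (3, -832003750526), (4, 357440995727), (5, -61611063329)], 16383, 16384, 20188, 16384, 1, 2⟩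
    ⟨[(0, 509670355348), (1, -2446395320468), (2, 4727017832170), (3, -4591331953964), (4, 2239913658374), (5, -438807462596)], 14043, 16384, 16385, 16384, 8, 1⟩ = true := by
  decide +kernel

theorem l7 : HoldsOn Lq Rq (Trg.left (Trg.left (chamber 1 1))) (Trg.right (Trg.left (chamberNR 2 7))) :=
  HoldsOn.congrT (by decide +kernel) (by decide +kernel)
    (holdsOn_of_leafOK hLne hRne (by norm_num) (by norm_num) hLq (hRqg 5) hNn c7)

end Vale.Agent.Lib.P154Neg.B7
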