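import Vale.Agent.Lib.P154Neg.B7.RayAll

/-!
# Pieces of the merge inequality
-/

namespace Vale.Agent.Lib.P154Neg.B7

open Vale.Agent.Lib.P154 Vale.Agent.Lib.P154GW Vale.Agent.Lib.P154K Tp

theorem c60 : leafOK 312 31 317 (⟨7, 1, -8, 2, 2, -4, 4, 4, -8, 24⟩ : Trg) (⟨-4, 2, 2, -5, 1, 4, -8, 4, 4, 84⟩ : Trg) Lq 12 5 67108864 Rq
    ⟨[(0, 665695944863), (1, -3280720378373), (2, 6510359190367), (3, -6495976930367), (4, 3256358689742), (5, -655649461783)], 14336, 15214, 16092, 16384, 4, 4⟩
    ⟨[(0, 114845411722), (1, -482688958307), (2, 816963665573), (3, -695313983116), (4, 297335171657), (5, -51074246551)], 16969, 17847, 18725, 16384, 2, 2⟩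
    ⟨[(0, 386780090054), (1, -1815461491628), (2, 3431597091626), (3, -3261767670595), (4, 1557763330357), (5, -298844240924)], 15213, 15981, 16750, 16384, 2, 2⟩ = true := by
  decide +kernel

theorem l60 : HoldsOn Lq Rq (Trg.left (Trg.right (Trg.left (chamber 1 1)))) (Trg.left (Trg.left (Trg.right (Trg.right (chamberN 2 7))))) :=
  HoldsOn.congrT (by decide +kernel) (by decide +kernel)
    (holdsOn_of_leafOK hLne hRne (by norm_num) (by norm_num) hLq (hRqg 5) hNn c60)

theorem c61 : leafOK 310 31 317 (⟨7, 1, -8, 2, 2, -4, 4, 4, -8, 24⟩ : Trg) (⟨-4, 2, 2, 0, 0, 0, -5, 1, 4, 84⟩ : Trg) Lq 12 5 67108864 Rq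
    ⟨[(0, 425706911816), (1, -2014832422645), (2, 3840004842144), (3, -3680036017899), (4, 1771926382690), (5, -342702587242)], 14774, 16384, 16385, 16384, 4, 1⟩
    ⟨[(0, 213483344214), (1, -949485529203), (2, 1700615744232), (3, -1531714420600), (4, 693180746070), (5, -126012775849)], 16383, 16384, 17847, 16384, 1, 2⟩
    ⟨[(0, 307622988468), (1, -1415627887827), (2, 2623858415284), (3, -2445984726313), (4, 1145864557566), (5, -215666238314)], 15798, 16384, 16750, 16384, 2, 1⟩ = true := by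
  decide +kernel

theorem l61 : HoldsOn Lq Rq (Trg.left (Trg.right (Trg.left (chamber 1 1)))) (Trg.right (Trg.left (Trg.right (Trg.right (chamberN 2 7))))) :=
  HoldsOn.congrT (by decide +kernel) (by decide +kernel)
    (holdsOn_of_leafOK hLne hRne (by norm_num) (by norm_num) hLq (hRqg 5) hNn c61)

end Vale.Agent.Lib.P154Neg.B7
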