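import Vale.Agent.Lib.P154Neg.B7.RayAll

/-!
# Pieces of the merge inequality
-/

namespace Vale.Agent.Lib.P154Neg.B7

open Vale.Agent.Lib.P154 Vale.Agent.Lib.P154GW Vale.Agent.Lib.P154K Tp

theorem c62 : leafOK 312 31 317 (⟨7, 1, -8, 2, 2, -4, 4, 4, -8, 24⟩ : Trg) (⟨-4, 2, 2, -5, 4, 1, -8, 4, 4, 84⟩ : Trg) Lq 12 5 67108864 Rq
    ⟨[(0, 632080853903), (1, -3099404839513), (2, 6119320355023), (3, -6074475398994), (4, 3029281710958), (5, -606735588772)], 14336, 15287, 16238, 16384, 4, 4⟩
    ⟨[(0, 114845411722), (1, -482688958307), (2, 816963665573), (3, -695313983116), (4, 297335171657), (5, -51074246551)], 16969, 17847, 18725, 16384, 2, 2⟩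
    ⟨[(0, 461058854966), (1, -2200604430449), (2, 4230268937671), (3, -4089736933228), (4, 1986864489605), (5, -387783810714)], 15213, 15725, 16238, 16384, 2, 1⟩ = true := by
  decide +kernel

theorem l62 : HoldsOn Lq Rq (Trg.left (Trg.right (Trg.left (chamber 1 1)))) (Trg.left (Trg.left (Trg.right (Trg.right (chamberNR 2 7))))) :=
  HoldsOn.congrT (by decide +kernel) (by decide +kernel)
    (holdsOn_of_leafOK hLne hRne (by norm_num) (by norm_num) hLq (hRqg 5) hNn c62)

theorem c63 : leafOK 310 31 317 (⟨7, 1, -8, 2, 2, -4, 4, 4, -8, 24⟩ : Trg) (⟨-4, 2, 2, 0, 0, 0, -5, 4, 1, 84⟩ : Trg) Lq 12 5 67108864 Rq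
    ⟨[(0, 370425111404), (1, -1733081901205), (2, 3265695818998), (3, -3094794094417), (4, 1473776521464), (5, -281954347380)], 15360, 16384, 16385, 16384, 4, 1⟩
    ⟨[(0, 203905815576), (1, -902762384839), (2, 1609464176780), (3, -1442823288526), (4, 649848250012), (5, -117565460139)], 16383, 16384, 18067, 16384, 1, 2⟩
    ⟨[(0, 383433039526), (1, -1799174270999), (2, 3400006376831), (3, -3231250827224), (4, 1543088152145), (5, -296035361415)], 15213, 16384, 16385, 16384, 4, 1⟩ = true := by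
  decide +kernel

theorem l63 : HoldsOn Lq Rq (Trg.left (Trg.right (Trg.left (chamber 1 1)))) (Trg.right (Trg.left (Trg.right (Trg.right (chamberNR 2 7))))) :=
  HoldsOn.congrT (by decide +kernel) (by decide +kernel)
    (holdsOn_of_leafOK hLne hRne (by norm_num) (by norm_num) hLq (hRqg 5) hNn c63)

end Vale.Agent.Lib.P154Neg.B7
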