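import Vale.Agent.Lib.P154Neg.B7.RayAll

/-!
# Pieces of the merge inequality
-/

namespace Vale.Agent.Lib.P154Neg.B7

open Vale.Agent.Lib.P154 Vale.Agent.Lib.P154GW Vale.Agent.Lib.P154K Tp

theorem c64 : leafOK 319 31 334 (⟨6, 0, -6, 7, 1, -8, 10, -2, -8, 24⟩ : Trg) (⟨-5, 1, 4, -10, 2, 8, -8, 4, 4, 84⟩ : Trg) Lq 12 5 67108864 Rq
    ⟨[(0, 2170291397039), (1, -11857975014330), (2, 26070367524639), (3, -28800000562472), (4, 15973292292989), (5, -3555986271767)], 12288, 13678, 15068, 16384, 8, 8⟩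
    ⟨[(0, 100357736529), (1, -416768171117), (2, 697009450578), (3, -586198012345), (4, 247716966662), (5, -42050976779)], 17261, 18066, 18871, 16384, 2, 2⟩
    ⟨[(0, 166323152255), (1, -722030748995), (2, 1261962989683), (3, -1108886728334), (4, 489465644250), (5, -86767197201)], 16091, 17261, 18432, 16384, 2, 2⟩ = true := by
  decide +kernel

theorem l64 : HoldsOn Lq Rq (Trg.left (Trg.right (Trg.right (Trg.left (chamber 1 1))))) (Trg.right (Trg.right (Trg.right (chamberN 2 7)))) :=
  HoldsOn.congrT (by decide +kernel) (by decide +kernel)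
    (holdsOn_of_leafOK hLne hRne (by norm_num) (by norm_num) hLq (hRqg 5) hNn c64)

theorem c65 : leafOK 331 31 371 (⟨6, 0, -6, 2, 2, -4, 7, 1, -8, 24⟩ : Trg) (⟨-5, 1, 4, -10, 2, 8, -8, 4, 4, 84⟩ : Trg) Lq 12 6 67108864 Rq
    ⟨[(0, 3282866931771), (1, -20373588214345), (2, 53015048199863), (3, -73962307946827), (4, 58300284618330), (5, -24602010324888), (6, 4339774507453)], 13165, 14482, 15799, 16384, 8, 16⟩
    ⟨[(0, 297821106069), (1, -1490419711035), (2, 3128894114003), (3, -3523411462824), (4, 2242817993994), (5, -764666816347), (6, 109031868393)], 17115, 17993, 18871, 16384, 1, 1⟩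
    ⟨[(0, 756400552710), (1, -4120938339462), (2, 9418564241832), (3, -11547251213339), (4, 8002870013681), (5, -2970814122838), (6, 461235976310)], 15798, 16530, 17262, 16384, 1, 1⟩ = true := by
  decide +kernel

theorem l65 : HoldsOn Lq Rq (Trg.right (Trg.right (Trg.right (Trg.left (chamber 1 1))))) (Trg.right (Trg.right (Trg.right (chamberN 2 7)))) :=
  HoldsOn.congrT (by decide +kernel) (by decide +kernel)
    (holdsOn_of_leafOK hLne hRne (by norm_num) (by norm_num) hLq (hRqg 6) hNn c65)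

end Vale.Agent.Lib.P154Neg.B7
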