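import Vale.Agent.Lib.P154Neg.B7.RayAll

/-!
# Pieces of the merge inequality
-/

namespace Vale.Agent.Lib.P154Neg.B7

open Vale.Agent.Lib.P154 Vale.Agent.Lib.P154GW Vale.Agent.Lib.P154K Tp

theorem c66 : leafOK 304 30 348 (⟨13, -5, -8, 8, -4, -4, 10, -2, -8, 24⟩ : Trg) (⟨-1, -1, 2, -2, -2, 4, -5, 1, 4, 42⟩ : Trg) Lq 12 5 67108864 Rq
    ⟨[(0, 2366753876437), (1, -12902489858315), (2, 28261357757955), (3, -31059501412302), (4, 17113724359522), (5, -3779804139163)], 11410, 13604, 15799, 16384, 16, 8⟩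
    ⟨[(0, 245548748424), (1, -1099999013155), (2, 1982710133737), (3, -1795575344233), (4, 816345426153), (5, -148962826356)], 14921, 16676, 18432, 16384, 4, 2⟩
    ⟨[(0, 62410534383), (1, -247793269573), (2, 396093183226), (3, -318304865910), (4, 128490833825), (5, -20829936392)], 17554, 18871, 20188, 16384, 2, 2⟩ = true := by
  decide +kernel

theorem l66 : HoldsOn Lq Rq (Trg.left (Trg.left (Trg.right (chamber 1 1)))) (Trg.right (Trg.left (chamberN 2 7))) :=
  HoldsOn.congrT (by decide +kernel) (by decide +kernel)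
    (holdsOn_of_leafOK hLne hRne (by norm_num) (by norm_num) hLq (hRqg 5) hNn c66)

theorem c67 : leafOK 322 30 373 (⟨13, -5, -8, 16, -8, -8, 8, -4, -4, 24⟩ : Trg) (⟨-1, -1, 2, -2, -2, 4, -5, 1, 4, 42⟩ : Trg) Lq 12 6 67108864 Rq
    ⟨[(0, 10017773188109), (1, -67648655450917), (2, 191054434689717), (3, -288573432744477), (4, 245672121597201), (5, -111706060772000), (6, 21183921713436)], 10532, 13165, 15799, 16384, 16, 16⟩
    ⟨[(0, 1098307387452), (1, -6148385390761), (2, 14423422183213), (3, -18130551792210), (4, 12869504225923), (5, -4887817718882), (6, 775588220832)], 14043, 16018, 17994, 16384, 4, 8⟩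
    ⟨[(0, 138599095834), (1, -645090857393), (2, 1258921910216), (3, -1317214121464), (4, 778686980547), (5, -246438849649), (6, 32602589923)], 17554, 19310, 21066, 16384, 2, 2⟩ = true := by
  decide +kernel

theorem l67 : HoldsOn Lq Rq (Trg.right (Trg.left (Trg.right (chamber 1 1)))) (Trg.right (Trg.left (chamberN 2 7))) :=
  HoldsOn.congrT (by decide +kernel) (by decide +kernel)
    (holdsOn_of_leafOK hLne hRne (by norm_num) (by norm_num) hLq (hRqg 6) hNn c67)

end Vale.Agent.Lib.P154Neg.B7
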