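import Vale.Agent.Lib.P154Neg.B7.RayAll

/-!
# Pieces of the merge inequality
-/

namespace Vale.Agent.Lib.P154Neg.B7

open Vale.Agent.Lib.P154 Vale.Agent.Lib.P154GW Vale.Agent.Lib.P154K Tp

theorem c68 : leafOK 312 30 372 (⟨1, 1, -2, 5, -1, -4, 0, 0, 0, 12⟩ : Trg) (⟨-9, 3, 6, -13, 5, 8, -8, 4, 4, 84⟩ : Trg) Lq 12 6 67108864 Rq
    ⟨[(0, 3261016448017), (1, -19911533857947), (2, 50881618888609), (3, -69588020011221), (4, 53683583573089), (5, -22136871214630), (6, 3810273282947)], 11410, 16384, 16385, 16384, 16, 1⟩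
    ⟨[(0, 393286254010), (1, -2010875914777), (2, 4310202448872), (3, -4952259915829), (4, 3214157233691), (5, -1116541614870), (6, 162098617767)], 16383, 16384, 19749, 16384, 1, 4⟩
    ⟨[(0, 674298450812), (1, -3632296289588), (2, 8207076889337), (3, -9945670809546), (4, 6812164092975), (5, -2498791720904), (6, 383286495778)], 15652, 16384, 17994, 16384, 1, 4⟩ = true := by
  decide +kernel

theorem l68 : HoldsOn Lq Rq (Trg.left (Trg.left (chamber 1 1))) (Trg.left (Trg.left (Trg.left (Trg.right (chamberN 2 7))))) :=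
  HoldsOn.congrT (by decide +kernel) (by decide +kernel)
    (holdsOn_of_leafOK hLne hRne (by norm_num) (by norm_num) hLq (hRqg 6) hNn c68)

theorem c69 : leafOK 312 30 372 (⟨1, 1, -2, 5, -1, -4, 0, 0, 0, 12⟩ : Trg) (⟨-9, 3, 6, -10, 2, 8, -13, 5, 8, 84⟩ : Trg) Lq 12 6 67108864 Rq
    ⟨[(0, 3261016448017), (1, -19911533857947), (2, 50881618888609), (3, -69588020011221), (4, 53683583573089), (5, -22136871214630), (6, 3810273282947)], 11410, 16384, 16385, 16384, 16, 1⟩
    ⟨[(0, 393286254010), (1, -2010875914777), (2, 4310202448872), (3, -4952259915829), (4, 3214157233691), (5, -1116541614870), (6, 162098617767)], 16383, 16384, 19749, 16384, 1, 4⟩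
    ⟨[(0, 609927120967), (1, -3253093433591), (2, 7276660089453), (3, -8728590180782), (4, 5916964648556), (5, -2147753819737), (6, 325952683998)], 15652, 16384, 18432, 16384, 1, 4⟩ = true := by
  decide +kernel

theorem l69 : HoldsOn Lq Rq (Trg.left (Trg.left (chamber 1 1))) (Trg.right (Trg.left (Trg.left (Trg.right (chamberN 2 7))))) :=
  HoldsOn.congrT (by decide +kernel) (by decide +kernel)
    (holdsOn_of_leafOK hLne hRne (by norm_num) (by norm_num) hLq (hRqg 6) hNn c69)

end Vale.Agent.Lib.P154Neg.B7
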