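import Vale.Agent.Lib.P154Neg.B7.RayAll

/-!
# Pieces of the merge inequality
-/

namespace Vale.Agent.Lib.P154Neg.B7

open Vale.Agent.Lib.P154 Vale.Agent.Lib.P154GW Vale.Agent.Lib.P154K Tp

theorem c70 : leafOK 331 31 371 (⟨6, 0, -6, 7, 1, -8, 10, -2, -8, 24⟩ : Trg) (⟨-5, 1, 4, -8, 4, 4, 0, 0, 0, 84⟩ : Trg) Lq 12 6 67108864 Rq
    ⟨[(0, 1763905055348), (1, -10332354933057), (2, 25373386542158), (3, -33402660195399), (4, 24841762780746), (5, -9889605960042), (6, 1645633819110)], 13458, 16384, 16385, 16384, 16, 1⟩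
    ⟨[(0, 487839458477), (1, -2549951524135), (2, 5590001375022), (3, -6571679273636), (4, 4366079748293), (5, -1553265455265), (6, 231042780108)], 16383, 16384, 18725, 16384, 1, 8⟩
    ⟨[(0, 698658974023), (1, -3780257870882), (2, 8581143948579), (3, -10449541244298), (4, 7193580955171), (5, -2652637610804), (6, 409119957075)], 16091, 16384, 17408, 16384, 1, 4⟩ = true := by
  decide +kernel

theorem l70 : HoldsOn Lq Rq (Trg.left (Trg.right (Trg.right (Trg.left (chamber 1 1))))) (Trg.left (Trg.right (Trg.right (chamberN 2 7)))) :=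
  HoldsOn.congrT (by decide +kernel) (by decide +kernel)
    (holdsOn_of_leafOK hLne hRne (by norm_num) (by norm_num) hLq (hRqg 6) hNn c70)

theorem c71 : leafOK 327 31 371 (⟨6, 0, -6, 2, 2, -4, 7, 1, -8, 24⟩ : Trg) (⟨-5, 1, 4, -8, 4, 4, 0, 0, 0, 84⟩ : Trg) Lq 12 6 67108864 Rq
    ⟨[(0, 1390512953834), (1, -7994639210228), (2, 19278216315951), (3, -24931139752705), (4, 18221946144518), (5, -7132079115901), (6, 1167249773395)], 14336, 16384, 16385, 16384, 16, 1⟩
    ⟨[(0, 487839458477), (1, -2549951524135), (2, 5590001375022), (3, -6571679273636), (4, 4366079748293), (5, -1553265455265), (6, 231042780108)], 16383, 16384, 18725, 16384, 1, 8⟩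
    ⟨[(0, 860037220630), (1, -4743534881878), (2, 10976817624748), (3, -13627032362635), (4, 9564108658571), (5, -3595798791931), (6, 565469641359)], 15798, 16384, 16823, 16384, 1, 2⟩ = true := by
  decide +kernel

theorem l71 : HoldsOn Lq Rq (Trg.right (Trg.right (Trg.right (Trg.left (chamber 1 1))))) (Trg.left (Trg.right (Trg.right (chamberN 2 7)))) :=
  HoldsOn.congrT (by decide +kernel) (by decide +kernel)
    (holdsOn_of_leafOK hLne hRne (by norm_num) (by norm_num) hLq (hRqg 6) hNn c71)

end Vale.Agent.Lib.P154Neg.B7
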