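import Vale.Agent.Lib.P154Neg.B7.RayAll

/-!
# Pieces of the merge inequality
-/

namespace Vale.Agent.Lib.P154Neg.B7

open Vale.Agent.Lib.P154 Vale.Agent.Lib.P154GW Vale.Agent.Lib.P154K Tp

theorem c8 : leafOK 295 29 372 (⟨1, 1, -2, 5, -1, -4, 0, 0, 0, 12⟩ : Trg) (⟨-4, 2, 2, -5, 4, 1, -8, 4, 4, 42⟩ : Trg) Lq 12 6 67108864 Rq
    ⟨[(0, 4432894650822), (1, -27514072486809), (2, 71395615294659), (3, -99058799957917), (4, 77459183554433), (5, -32350293033950), (6, 5635539087626)], 10532, 16384, 16385, 16384, 16, 1⟩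
    ⟨[(0, 302672821633), (1, -1504829883145), (2, 3134099035777), (3, -3496259643662), (4, 2201518182792), (5, -741400241091), (6, 104266836560)], 16383, 16384, 21066, 16384, 1, 4⟩
    ⟨[(0, 828583029657), (1, -4547828844784), (2, 10470227290813), (3, -12928654744181), (4, 9023270364065), (5, -3372698762173), (6, 527168775467)], 15213, 16384, 17555, 16384, 4, 4⟩ = true := by
  decide +kernel

theorem l8 : HoldsOn Lq Rq (Trg.left (Trg.left (chamber 1 1))) (Trg.left (Trg.right (chamberNR 2 7))) :=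
  HoldsOn.congrT (by decide +kernel) (by decide +kernel)
    (holdsOn_of_leafOK hLne hRne (by norm_num) (by norm_num) hLq (hRqg 6) hNn c8)

theorem c9 : leafOK 293 29 371 (⟨1, 1, -2, 2, 2, -4, 5, -1, -4, 12⟩ : Trg) (⟨-1, 2, -1, -5, 4, 1, 0, 0, 0, 42⟩ : Trg) Lq 12 6 67108864 Rq
    ⟨[(0, 1627131619419), (1, -9439612962070), (2, 22951644313630), (3, -29907277704859), (4, 22010251605115), (5, -8668831405649), (6, 1426761643278)], 13165, 16384, 16970, 16384, 8, 2⟩
    ⟨[(0, 359724593935), (1, -1822092207066), (2, 3868192093955), (3, -4400880990487), (4, 2827670436867), (5, -972211955685), (6, 139665137345)], 16383, 16384, 20188, 16384, 1, 4⟩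
    ⟨[(0, 1503488688330), (1, -8698486225411), (2, 21104571718847), (3, -27457638355739), (4, 20187143849952), (5, -7947019660312), (6, 1308007093197)], 14043, 16384, 16385, 16384, 16, 1⟩ = true := by
  decide +kernel

theorem l9 : HoldsOn Lq Rq (Trg.right (Trg.left (chamber 1 1))) (Trg.left (Trg.left (chamberNR 2 7))) :=
  HoldsOn.congrT (by decide +kernel) (by decide +kernel)
    (holdsOn_of_leafOK hLne hRne (by norm_num) (by norm_num) hLq (hRqg 6) hNn c9)

end Vale.Agent.Lib.P154Neg.B7
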