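import Vale.Agent.Lib.P154Neg.B7.RayAll

/-!
# Pieces of the merge inequality
-/

namespace Vale.Agent.Lib.P154Neg.B7

open Vale.Agent.Lib.P154 Vale.Agent.Lib.P154GW Vale.Agent.Lib.P154K Tp

theorem c10 : leafOK 281 29 332 (⟨1, 1, -2, 2, 2, -4, 5, -1, -4, 12⟩ : Trg) (⟨-1, 2, -1, -2, 4, -2, -5, 4, 1, 42⟩ : Trg) Lq 12 5 67108864 Rq
    ⟨[(0, 616391501652), (1, -2984488429339), (2, 5809092162838), (3, -5676052992579), (4, 2781908118069), (5, -546783150468)], 13165, 15360, 17555, 16384, 8, 4⟩
    ⟨[(0, 81394980335), (1, -330215098028), (2, 539129714768), (3, -442334096018), (4, 182228118766), (5, -30136609402)], 16676, 18432, 20188, 16384, 2, 2⟩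
    ⟨[(0, 824638904775), (1, -4143581318639), (2, 8383486252303), (3, -8528478949801), (4, 4358741614542), (5, -894739873368)], 14043, 14921, 15799, 16384, 4, 4⟩ = true := by
  decide +kernel

theorem l10 : HoldsOn Lq Rq (Trg.right (Trg.left (chamber 1 1))) (Trg.right (Trg.left (chamberNR 2 7))) :=
  HoldsOn.congrT (by decide +kernel) (by decide +kernel)
    (holdsOn_of_leafOK hLne hRne (by norm_num) (by norm_num) hLq (hRqg 5) hNn c10)

theorem c11 : leafOK 291 29 371 (⟨4, -2, -2, 0, 0, 0, 5, -1, -4, 12⟩ : Trg) (⟨-1, 2, -1, -5, 4, 1, 0, 0, 0, 42⟩ : Trg) Lq 12 6 67108864 Rq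
    ⟨[(0, 1914850786867), (1, -11285598328108), (2, 27879760921742), (3, -36914741733238), (4, 27608009824672), (5, -11050810366572), (6, 1848596003501)], 13165, 16384, 16385, 16384, 16, 1⟩
    ⟨[(0, 359724593935), (1, -1822092207066), (2, 3868192093955), (3, -4400880990487), (4, 2827670436867), (5, -972211955685), (6, 139665137345)], 16383, 16384, 20188, 16384, 1, 4⟩
    ⟨[(0, 956301351441), (1, -5321373245256), (2, 12421876711878), (3, -15554167490292), (4, 11009581260805), (5, -4173967929924), (6, 661816450212)], 15213, 16384, 16970, 16384, 4, 4⟩ = true := by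
  decide +kernel

theorem l11 : HoldsOn Lq Rq (Trg.right (Trg.right (chamber 1 1))) (Trg.left (Trg.left (chamberNR 2 7))) :=
  HoldsOn.congrT (by decide +kernel) (by decide +kernel)
    (holdsOn_of_leafOK hLne hRne (by norm_num) (by norm_num) hLq (hRqg 6) hNn c11)

end Vale.Agent.Lib.P154Neg.B7
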