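import Vale.Agent.Lib.P154Neg.B7.RayAll

/-!
# Pieces of the merge inequality
-/

namespace Vale.Agent.Lib.P154Neg.B7

open Vale.Agent.Lib.P154 Vale.Agent.Lib.P154GW Vale.Agent.Lib.P154K Tp

theorem c12 : leafOK 298 29 372 (⟨4, -2, -2, 0, 0, 0, 5, -1, -4, 12⟩ : Trg) (⟨-4, 2, 2, -5, 4, 1, -8, 4, 4, 42⟩ : Trg) Lq 12 6 67108864 Rq
    ⟨[(0, 4432894650822), (1, -27514072486809), (2, 71395615294659), (3, -99058799957917), (4, 77459183554433), (5, -32350293033950), (6, 5635539087626)], 10532, 16384, 16385, 16384, 16, 1⟩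
    ⟨[(0, 302672821633), (1, -1504829883145), (2, 3134099035777), (3, -3496259643662), (4, 2201518182792), (5, -741400241091), (6, 104266836560)], 16383, 16384, 21066, 16384, 1, 4⟩
    ⟨[(0, 553070584097), (1, -2922505577190), (2, 6476107411604), (3, -7695122354202), (4, 5166847066326), (5, -1857511484406), (6, 279181462635)], 15798, 16384, 18725, 16384, 1, 4⟩ = true := by
  decide +kernel

theorem l12 : HoldsOn Lq Rq (Trg.right (Trg.right (chamber 1 1))) (Trg.left (Trg.right (chamberNR 2 7))) :=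
  HoldsOn.congrT (by decide +kernel) (by decide +kernel)
    (holdsOn_of_leafOK hLne hRne (by norm_num) (by norm_num) hLq (hRqg 6) hNn c12)

theorem c13 : leafOK 292 29 371 (⟨4, -2, -2, 0, 0, 0, 5, -1, -4, 12⟩ : Trg) (⟨-4, 2, 2, 0, 0, 0, -5, 4, 1, 42⟩ : Trg) Lq 12 6 67108864 Rq
    ⟨[(0, 1914850786867), (1, -11285598328108), (2, 27879760921742), (3, -36914741733238), (4, 27608009824672), (5, -11050810366572), (6, 1848596003501)], 13165, 16384, 16385, 16384, 16, 1⟩
    ⟨[(0, 359724593935), (1, -1822092207066), (2, 3868192093955), (3, -4400880990487), (4, 2827670436867), (5, -972211955685), (6, 139665137345)], 16383, 16384, 20188, 16384, 1, 4⟩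
    ⟨[(0, 722293176237), (1, -3918398780315), (2, 8917477671744), (3, -10886150535700), (4, 7512302549081), (5, -2776688483197), (6, 429231511014)], 15798, 16384, 17555, 16384, 1, 4⟩ = true := by
  decide +kernel

theorem l13 : HoldsOn Lq Rq (Trg.right (Trg.right (chamber 1 1))) (Trg.right (Trg.right (chamberNR 2 7))) :=
  HoldsOn.congrT (by decide +kernel) (by decide +kernel)
    (holdsOn_of_leafOK hLne hRne (by norm_num) (by norm_num) hLq (hRqg 6) hNn c13)

end Vale.Agent.Lib.P154Neg.B7
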