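import Vale.Agent.Lib.P154Neg.B7.RayAll

/-!
# Pieces of the merge inequality
-/

namespace Vale.Agent.Lib.P154Neg.B7

open Vale.Agent.Lib.P154 Vale.Agent.Lib.P154GW Vale.Agent.Lib.P154K Tp

theorem c14 : leafOK 311 30 352 (⟨13, -5, -8, 8, -4, -4, 10, -2, -8, 24⟩ : Trg) (⟨-4, 2, 2, -5, 4, 1, -8, 4, 4, 42⟩ : Trg) Lq 12 5 67108864 Rq
    ⟨[(0, 17491097320581), (1, -112082751999145), (2, 287897116576668), (3, -370217053915721), (4, 238188707515651), (5, -61307464676077)], 8777, 11410, 14044, 16384, 16, 16⟩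
    ⟨[(0, 48722866805), (1, -188750173483), (2, 294288386729), (3, -230596878209), (4, 90734987133), (5, -14333190467)], 17554, 19310, 21066, 16384, 2, 2⟩
    ⟨[(0, 139446563141), (1, -593762538190), (2, 1017361816439), (3, -875911231572), (4, 378629483161), (5, -65696962171)], 15798, 17554, 19310, 16384, 4, 2⟩ = true := by
  decide +kernel

theorem l14 : HoldsOn Lq Rq (Trg.left (Trg.left (Trg.right (chamber 1 1)))) (Trg.left (Trg.right (chamberNR 2 7))) :=
  HoldsOn.congrT (by decide +kernel) (by decide +kernel)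
    (holdsOn_of_leafOK hLne hRne (by norm_num) (by norm_num) hLq (hRqg 5) hNn c14)

theorem c15 : leafOK 277 30 313 (⟨5, -1, -4, 8, -4, -4, 0, 0, 0, 24⟩ : Trg) (⟨-1, -1, 2, -2, -2, 4, -5, 1, 4, 42⟩ : Trg) Lq 12 4 67108864 Rq
    ⟨[(0, 177069191503), (1, -682450227024), (2, 992053609813), (3, -644026671606), (4, 157421206178)], 13458, 16384, 16385, 16384, 8, 1⟩
    ⟨[(0, 94232475121), (1, -345494317908), (2, 478155258103), (3, -295750830006), (4, 68924523554)], 15213, 16384, 17408, 16384, 1, 2⟩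
    ⟨[(0, 58952520273), (1, -206821357578), (2, 273796229165), (3, -161931833728), (4, 36071550732)], 16383, 16384, 18725, 16384, 1, 4⟩ = true := by
  decide +kernel

theorem l15 : HoldsOn Lq Rq (Trg.left (Trg.right (Trg.right (chamber 1 1)))) (Trg.right (Trg.left (chamberN 2 7))) :=
  HoldsOn.congrT (by decide +kernel) (by decide +kernel)
    (holdsOn_of_leafOK hLne hRne (by norm_num) (by norm_num) hLq (hRqg 4) hNn c15)

end Vale.Agent.Lib.P154Neg.B7
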