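import Vale.Agent.Lib.P154Neg.B7.RayAll

/-!
# Pieces of the merge inequality
-/

namespace Vale.Agent.Lib.P154Neg.B7

open Vale.Agent.Lib.P154 Vale.Agent.Lib.P154GW Vale.Agent.Lib.P154K Tp

theorem c16 : leafOK 300 30 334 (⟨5, -1, -4, 10, -2, -8, 8, -4, -4, 24⟩ : Trg) (⟨-1, -1, 2, -2, -2, 4, -5, 1, 4, 42⟩ : Trg) Lq 12 5 67108864 Rq
    ⟨[(0, 1638031726827), (1, -8694862490580), (2, 18562032800610), (3, -19901228164841), (4, 10707260486877), (5, -2311175916837)], 12288, 14043, 15799, 16384, 8, 8⟩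
    ⟨[(0, 222409432884), (1, -988595408205), (2, 1768388678810), (3, -1589624061530), (4, 717489859232), (5, -130001388976)], 15213, 16822, 18432, 16384, 4, 2⟩
    ⟨[(0, 92063520873), (1, -378960335675), (2, 628100892638), (3, -523426823737), (4, 219138142455), (5, -36848428213)], 17115, 18212, 19310, 16384, 2, 2⟩ = true := by
  decide +kernel

theorem l16 : HoldsOn Lq Rq (Trg.right (Trg.right (Trg.right (chamber 1 1)))) (Trg.right (Trg.left (chamberN 2 7))) :=
  HoldsOn.congrT (by decide +kernel) (by decide +kernel)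
    (holdsOn_of_leafOK hLne hRne (by norm_num) (by norm_num) hLq (hRqg 5) hNn c16)

theorem c17 : leafOK 311 30 352 (⟨13, -5, -8, 8, -4, -4, 10, -2, -8, 24⟩ : Trg) (⟨-4, 2, 2, -5, 1, 4, -8, 4, 4, 42⟩ : Trg) Lq 12 5 67108864 Rq
    ⟨[(0, 17491097320581), (1, -112082751999145), (2, 287897116576668), (3, -370217053915721), (4, 238188707515651), (5, -61307464676077)], 8777, 11410, 14044, 16384, 16, 16⟩
    ⟨[(0, 57940623643), (1, -227553058244), (2, 359561022583), (3, -285442382406), (4, 113754631372), (5, -18194185214)], 16969, 19017, 21066, 16384, 2, 2⟩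
    ⟨[(0, 84577188576), (1, -345029881051), (2, 566629954691), (3, -467782325115), (4, 193970100138), (5, -32298086667)], 16969, 18359, 19749, 16384, 2, 2⟩ = true := by
  decide +kernel

theorem l17 : HoldsOn Lq Rq (Trg.left (Trg.left (Trg.right (chamber 1 1)))) (Trg.left (Trg.right (chamberN 2 7))) :=
  HoldsOn.congrT (by decide +kernel) (by decide +kernel)
    (holdsOn_of_leafOK hLne hRne (by norm_num) (by norm_num) hLq (hRqg 5) hNn c17)

end Vale.Agent.Lib.P154Neg.B7
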