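import Vale.Agent.Lib.P154Neg.B7.RayAll

/-!
# Pieces of the merge inequality
-/

namespace Vale.Agent.Lib.P154Neg.B7

open Vale.Agent.Lib.P154 Vale.Agent.Lib.P154GW Vale.Agent.Lib.P154K Tp

theorem c18 : leafOK 312 30 371 (⟨7, 1, -8, 10, -2, -8, 2, 2, -4, 24⟩ : Trg) (⟨-4, 2, 2, 0, 0, 0, -5, 4, 1, 42⟩ : Trg) Lq 12 6 67108864 Rq
    ⟨[(0, 1914850786867), (1, -11285598328108), (2, 27879760921742), (3, -36914741733238), (4, 27608009824672), (5, -11050810366572), (6, 1848596003501)], 13165, 16384, 16385, 16384, 16, 1⟩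
    ⟨[(0, 359724593935), (1, -1822092207066), (2, 3868192093955), (3, -4400880990487), (4, 2827670436867), (5, -972211955685), (6, 139665137345)], 16383, 16384, 20188, 16384, 1, 4⟩
    ⟨[(0, 1027908874498), (1, -5754532947090), (2, 13513428314324), (3, -17020923738542), (4, 12118024655191), (5, -4620639012902), (6, 736800963385)], 14921, 16384, 16970, 16384, 4, 4⟩ = true := by
  decide +kernel

theorem l18 : HoldsOn Lq Rq (Trg.right (Trg.right (Trg.left (chamber 1 1)))) (Trg.right (Trg.right (chamberNR 2 7))) :=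
  HoldsOn.congrT (by decide +kernel) (by decide +kernel)
    (holdsOn_of_leafOK hLne hRne (by norm_num) (by norm_num) hLq (hRqg 6) hNn c18)

theorem c19 : leafOK 312 30 352 (⟨12, -6, -6, 8, -4, -4, 13, -5, -8, 24⟩ : Trg) (⟨-4, 2, 2, -5, 4, 1, -8, 4, 4, 42⟩ : Trg) Lq 12 5 67108864 Rq
    ⟨[(0, 17491097320581), (1, -112082751999145), (2, 287897116576668), (3, -370217053915721), (4, 238188707515651), (5, -61307464676077)], 8777, 11410, 14044, 16384, 16, 16⟩
    ⟨[(0, 48722866805), (1, -188750173483), (2, 294288386729), (3, -230596878209), (4, 90734987133), (5, -14333190467)], 17554, 19310, 21066, 16384, 2, 2⟩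
    ⟨[(0, 88675416943), (1, -362860574170), (2, 597626359891), (3, -494693426446), (4, 205638862041), (5, -34319603323)], 16676, 18285, 19895, 16384, 2, 2⟩ = true := by
  decide +kernel

theorem l19 : HoldsOn Lq Rq (Trg.right (Trg.right (Trg.left (Trg.right (chamber 1 1))))) (Trg.left (Trg.right (chamberNR 2 7))) :=
  HoldsOn.congrT (by decide +kernel) (by decide +kernel)
    (holdsOn_of_leafOK hLne hRne (by norm_num) (by norm_num) hLq (hRqg 5) hNn c19)

end Vale.Agent.Lib.P154Neg.B7
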