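import Vale.Agent.Lib.P154Neg.B7.L0
import Vale.Agent.Lib.P154Neg.B7.L1
import Vale.Agent.Lib.P154Neg.B7.L2
import Vale.Agent.Lib.P154Neg.B7.L3
import Vale.Agent.Lib.P154Neg.B7.L4
import Vale.Agent.Lib.P154Neg.B7.L5
import Vale.Agent.Lib.P154Neg.B7.L6
import Vale.Agent.Lib.P154Neg.B7.L7
import Vale.Agent.Lib.P154Neg.B7.L8
import Vale.Agent.Lib.P154Neg.B7.L9
import Vale.Agent.Lib.P154Neg.B7.L10
import Vale.Agent.Lib.P154Neg.B7.L11
import Vale.Agent.Lib.P154Neg.B7.L12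
import Vale.Agent.Lib.P154Neg.B7.L13
import Vale.Agent.Lib.P154Neg.B7.L14
import Vale.Agent.Lib.P154Neg.B7.L15
import Vale.Agent.Lib.P154Neg.B7.L16
import Vale.Agent.Lib.P154Neg.B7.L17
import Vale.Agent.Lib.P154Neg.B7.L18
import Vale.Agent.Lib.P154Neg.B7.L19
import Vale.Agent.Lib.P154Neg.B7.L20
import Vale.Agent.Lib.P154Neg.B7.L21
import Vale.Agent.Lib.P154Neg.B7.L22
import Vale.Agent.Lib.P154Neg.B7.L23
import Vale.Agent.Lib.P154Neg.B7.L24
import Vale.Agent.Lib.P154Neg.B7.L25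
import Vale.Agent.Lib.P154Neg.B7.L26
import Vale.Agent.Lib.P154Neg.B7.L27
import Vale.Agent.Lib.P154Neg.B7.L28
import Vale.Agent.Lib.P154Neg.B7.L29
import Vale.Agent.Lib.P154Neg.B7.L30
import Vale.Agent.Lib.P154Neg.B7.L31
import Vale.Agent.Lib.P154Neg.B7.L32
import Vale.Agent.Lib.P154Neg.B7.L33
import Vale.Agent.Lib.P154Neg.B7.L34
import Vale.Agent.Lib.P154Neg.B7.L35
import Vale.Agent.Lib.P154Neg.B7.P
import Vale.Agent.Lib.P154Anti.Cert.D13.Final
import Vale.Agent.Lib.P154Anti.Cert.D14.Final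
import Vale.Agent.Lib.P154Anti.Cert.D15.Final

/-!
# Nonreconstruction on regular trees for a negative eigenvalue of absolute value at most `2/7`
-/

open Filter Topology

namespace Vale.Agent.Lib.P154Neg.B7

open Vale.Agent.Lib.P154 Vale.Agent.Lib.P154GW Vale.Agent.Lib.P154K Tp
open Vale.Agent.Lib.P154Anti

lemma hHP : HoldsOn Lq Rq (chamber 1 1) (chamberN 2 7) :=
  (HoldsOn.splitA (by decide) (HoldsOn.splitA (by decide) (HoldsOn.splitB (by decide) (HoldsOn.splitB (by decide) (HoldsOn.splitB (by decide) l40 l41) l0) (HoldsOn.splitB (by decide) (HoldsOn.splitB (by decide) (HoldsOn.splitB (by decide) l68 l69) l33) (HoldsOn.splitB (by decide) l42 (HoldsOn.splitA (by decide) l58 l59)))) (HoldsOn.splitB (by decide) (HoldsOn.splitB (by decide) l1 l2) (HoldsOn.splitA (by decide) (HoldsOn.splitB (by decide) (HoldsOn.splitB (by decide) l31 l32) (HoldsOn.splitB (by decide) (HoldsOn.splitB (by decide) l60 l61) l47)) (HoldsOn.splitA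 (by decide) (HoldsOn.splitB (by decide) l43 (HoldsOn.splitB (by decide) l70 l64)) (HoldsOn.splitB (by decide) l44 (HoldsOn.splitB (by decide) l71 l65)))))) (HoldsOn.splitA (by decide) (HoldsOn.splitB (by decide) (HoldsOn.splitB (by decide) (HoldsOn.splitB (by decide) l25 l26) (HoldsOn.splitA (by decide) l66 l67)) (HoldsOn.splitB (by decide) (HoldsOn.splitA (by decide) l17 (HoldsOn.splitA (by decide) (HoldsOn.splitA (by decide) l39 (HoldsOn.splitB (by decide) l46 (HoldsOn.splitB (by decide) l54 l55))) l27)) (HoldsOn.splitB (by decide) l23 l24))) (HoldsOn.splitB (by decide) (HoldsOn.splitB (by decide) l3 (HoldsOn.splitA (by decide) l15 l16)) (HoldsOn.splitB (by decide) l4 l5))))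

lemma hHM : HoldsOn Lq Rq (chamber 1 1) (chamberNR 2 7) :=
  (HoldsOn.splitA (by decide) (HoldsOn.splitA (by decide) (HoldsOn.splitB (by decide) (HoldsOn.splitB (by decide) l6 l7) (HoldsOn.splitB (by decide) l8 (HoldsOn.splitB (by decide) l56 l57))) (HoldsOn.splitB (by decide) (HoldsOn.splitB (by decide) l9 l10) (HoldsOn.splitA (by decide) (HoldsOn.splitB (by decide) (HoldsOn.splitB (by decide) l34 l35) (HoldsOn.splitB (by decide) (HoldsOn.splitB (by decide) l62 l63) l22)) (HoldsOn.splitB (by decide) (HoldsOn.splitA (by decide) l36 l37) l18)))) (HoldsOn.splitA (by decide) (HoldsOn.splitB (by decide) (HoldsOn.splitB (by decide) (HoldsOn.splitB (by decide) (HoldsOn.splitA (by decide) l50 l51) l30) (HoldsOn.splitA (by decide) l48 l49)) (HoldsOn.splitB (by decide) (HoldsOn.splitA (by decide) l14 (HoldsOn.splitA (by decide) (HoldsOn.splitA (by decide) l38 (HoldsOn.splitB (by decide) l45 (HoldsOn.splitB (by decide) l52 l53)))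 l19)) (HoldsOn.splitB (by decide) l28 l29))) (HoldsOn.splitB (by decide) (HoldsOn.splitB (by decide) l11 (HoldsOn.splitA (by decide) l20 l21)) (HoldsOn.splitB (by decide) l12 l13))))

lemma hrhs (a c : Tp) : rhsL Rq a (sc (((2 : ℕ) : ℝ) / ((7 : ℕ) : ℝ)) c) =
    potL Lq a + (((2 : ℕ) : ℝ) / ((7 : ℕ) : ℝ)) ^ 2 * potL Lq c - 307453 * (p2T a * p2T (sc (((2 : ℕ) : ℝ) / ((7 : ℕ) : ℝ)) c)) +
      13738962762 * (p2T a * p2T (sc (((2 : ℕ) : ℝ) / ((7 : ℕ) : ℝ)) c) ^ 3) - 534445651 * p2T (sc (((2 : ℕ) : ℝ) / ((7 : ℕ) : ℝ)) c) ^ 3 := by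
  simp only [rhsL, potL, Rq, Lq, List.map_cons, List.map_nil, List.sum_cons, List.sum_nil, sc,
    p2T_scale', p3T_scale']
  norm_num
  try ring

lemma hray (c : Tp) (hc : InSx 1 c) (μ : ℝ) (h0 : 0 ≤ μ) (h1 : μ ≤ 1) :
    potL Lq (scale μ c) ≤ μ ^ 2 * potL Lq c :=
  (hall c hc μ (by have : (0 : ℝ) ≤ (((2 : ℕ) : ℝ) / ((7 : ℕ) : ℝ)) := by positivity
                   linarith) h1).2

lemma hge (c : Tp) (hc : InSx 1 c) : p2T c ≤ 1 / 16777216 * potL Lq c := by
  have := hG c hc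
  rw [div_mul_eq_mul_div, le_div_iff₀ (by norm_num)]
  linarith

lemma hRPe (a b : Tp) : rhsL RPq a b = 1024 * (p2T a + (1 + 83 / 512) * p2T b + 4 / 1 * p2T b ^ 2) := by
  simp only [rhsL, RPq, List.map_cons, List.map_nil, List.sum_cons, List.sum_nil]
  norm_num
  ring

/-- **Nonreconstruction on the `13`-ary tree** for a negative eigenvalue with `13 lam ^ 2 ≤ 1`. -/
theorem tendsto_D13 {lam : ℝ} (hl : lam < 0) (hd : ((13 : ℕ) : ℝ) * lam ^ 2 ≤ 1) :
    Tendsto (reconDist 3 (11 + 2) lam) atTop (𝓝 0) := by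
  have hd' : (((11 : ℕ) : ℝ) + 2) * lam ^ 2 ≤ 1 := by
    norm_num at hd ⊢
    linarith
  have hl0 : -(((2 : ℕ) : ℝ) / ((7 : ℕ) : ℝ)) ≤ lam := by
    norm_num
    by_contra hc
    push Not at hc
    norm_num at hd
    nlinarith
  have hl1 : lamOf Vale.Agent.Lib.P154Anti.Cert.D13.cfg ≤ lam := by
    rw [Vale.Agent.Lib.P154Anti.Cert.D13.lamOf_cfg]
    by_contra hc
    push Not at hc
    norm_num at hd
    nlinarith
  exact tendsto_rel (L := Lq) (R := Rq) (LP := LPq) (RP := RPq) (p := 2) (q := 7) (k := 11)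
    (N := Vale.Agent.Lib.P154Anti.Cert.D13.depth) (T := 307453) (C := 13738962762) (β := 534445651) (δ := 83 / 512)
    (M := 4 / 1) (y₀ := Vale.Agent.Lib.P154Anti.Cert.D13.y0) (m₀ := Vale.Agent.Lib.P154Anti.Cert.D13.m0)
    (K₀ := 1 / 16777216) (E := 1024) (by norm_num) (by norm_num) (by norm_num) rfl
    hHP hHM hrhs (by norm_num) (by norm_num) hray hFY hPP hPM (by norm_num) hLPe hRPe (by norm_num) (by norm_num) (by norm_num)
    hge hl0 hl hd' (fun n hn => Vale.Agent.Lib.P154Anti.Cert.D13.moments hl1 hl.le n hn)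
    (by simp only [Vale.Agent.Lib.P154Anti.Cert.D13.y0]; positivity)
    (by simp only [Vale.Agent.Lib.P154Anti.Cert.D13.m0]; positivity)
    (by simp only [Vale.Agent.Lib.P154Anti.Cert.D13.y0, Vale.Agent.Lib.P154Anti.Cert.D13.m0]; norm_num)

/-- **Nonreconstruction on the `14`-ary tree** for a negative eigenvalue with `14 lam ^ 2 ≤ 1`. -/
theorem tendsto_D14 {lam : ℝ} (hl : lam < 0) (hd : ((14 : ℕ) : ℝ) * lam ^ 2 ≤ 1) :
    Tendsto (reconDist 3 (12 + 2) lam) atTop (𝓝 0) := by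
  have hd' : (((12 : ℕ) : ℝ) + 2) * lam ^ 2 ≤ 1 := by
    norm_num at hd ⊢
    linarith
  have hl0 : -(((2 : ℕ) : ℝ) / ((7 : ℕ) : ℝ)) ≤ lam := by
    norm_num
    by_contra hc
    push Not at hc
    norm_num at hd
    nlinarith
  have hl1 : lamOf Vale.Agent.Lib.P154Anti.Cert.D14.cfg ≤ lam := by
    rw [Vale.Agent.Lib.P154Anti.Cert.D14.lamOf_cfg]
    by_contra hc
    push Not at hc
    norm_num at hd
    nlinarith
  exact tendsto_rel (L := Lq) (R := Rq) (LP := LPq) (RP := RPq) (p := 2) (q := 7) (k := 12)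
    (N := Vale.Agent.Lib.P154Anti.Cert.D14.depth) (T := 307453) (C := 13738962762) (β := 534445651) (δ := 83 / 512)
    (M := 4 / 1) (y₀ := Vale.Agent.Lib.P154Anti.Cert.D14.y0) (m₀ := Vale.Agent.Lib.P154Anti.Cert.D14.m0)
    (K₀ := 1 / 16777216) (E := 1024) (by norm_num) (by norm_num) (by norm_num) rfl
    hHP hHM hrhs (by norm_num) (by norm_num) hray hFY hPP hPM (by norm_num) hLPe hRPe (by norm_num) (by norm_num) (by norm_num)
    hge hl0 hl hd' (fun n hn => Vale.Agent.Lib.P154Anti.Cert.D14.moments hl1 hl.le n hn)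
    (by simp only [Vale.Agent.Lib.P154Anti.Cert.D14.y0]; positivity)
    (by simp only [Vale.Agent.Lib.P154Anti.Cert.D14.m0]; positivity)
    (by simp only [Vale.Agent.Lib.P154Anti.Cert.D14.y0, Vale.Agent.Lib.P154Anti.Cert.D14.m0]; norm_num)

/-- **Nonreconstruction on the `15`-ary tree** for a negative eigenvalue with `15 lam ^ 2 ≤ 1`. -/
theorem tendsto_D15 {lam : ℝ} (hl : lam < 0) (hd : ((15 : ℕ) : ℝ) * lam ^ 2 ≤ 1) :
    Tendsto (reconDist 3 (13 + 2) lam) atTop (𝓝 0) := by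
  have hd' : (((13 : ℕ) : ℝ) + 2) * lam ^ 2 ≤ 1 := by
    norm_num at hd ⊢
    linarith
  have hl0 : -(((2 : ℕ) : ℝ) / ((7 : ℕ) : ℝ)) ≤ lam := by
    norm_num
    by_contra hc
    push Not at hc
    norm_num at hd
    nlinarith
  have hl1 : lamOf Vale.Agent.Lib.P154Anti.Cert.D15.cfg ≤ lam := by
    rw [Vale.Agent.Lib.P154Anti.Cert.D15.lamOf_cfg]
    by_contra hc
    push Not at hc
    norm_num at hd
    nlinarith
  exact tendsto_rel (L := Lq) (R := Rq) (LP := LPq) (RP := RPq) (p := 2) (q := 7) (k := 13)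
    (N := Vale.Agent.Lib.P154Anti.Cert.D15.depth) (T := 307453) (C := 13738962762) (β := 534445651) (δ := 83 / 512)
    (M := 4 / 1) (y₀ := Vale.Agent.Lib.P154Anti.Cert.D15.y0) (m₀ := Vale.Agent.Lib.P154Anti.Cert.D15.m0)
    (K₀ := 1 / 16777216) (E := 1024) (by norm_num) (by norm_num) (by norm_num) rfl
    hHP hHM hrhs (by norm_num) (by norm_num) hray hFY hPP hPM (by norm_num) hLPe hRPe (by norm_num) (by norm_num) (by norm_num)
    hge hl0 hl hd' (fun n hn => Vale.Agent.Lib.P154Anti.Cert.D15.moments hl1 hl.le n hn)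
    (by simp only [Vale.Agent.Lib.P154Anti.Cert.D15.y0]; positivity)
    (by simp only [Vale.Agent.Lib.P154Anti.Cert.D15.m0]; positivity)
    (by simp only [Vale.Agent.Lib.P154Anti.Cert.D15.y0, Vale.Agent.Lib.P154Anti.Cert.D15.m0]; norm_num)

end Vale.Agent.Lib.P154Neg.B7
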