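import Vale.Agent.Lib.P154Neg.B7.Data

/-!
# Parts of the ray inequality
-/

namespace Vale.Agent.Lib.P154Neg.B7

open Vale.Agent.Lib.P154 Vale.Agent.Lib.P154GW Vale.Agent.Lib.P154K Tp

/-- A part of the subdivision for the ray inequality. -/
def rayT0 : RT := (.sT .leaf (.sT (.sT (.sM (640) .leaf (.sM (1216) .leaf (.sM (1504) .leaf (.sM (1648) .leaf (.sM (1720) .leaf (.sT .leaf (.sT .leaf (.sM (1756) .leaf (.sM (1774) .leaf (.sT (.sT .leaf (.sM (1783) .leaf (.sM (1787) .leaf (.sM (1789) .leaf (.sM (1790) .leaf (.sT (.sT .leaf .leaf) .leaf)))))) .leaf)))))))))) .leaf) (.sT (.sT .leaf .leaf) .leaf)))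

theorem rayC0 : rayChk 306 12 10 Lq rayT0 (chamber 1 1) (-512) 1792 1792 = true := by
  decide +kernel

lemma rayL0 : RayOn Lq (chamber 1 1) (((-512 : ℤ) : ℝ) / ((1792 : ℤ) : ℝ)) (((1792 : ℤ) : ℝ) / ((1792 : ℤ) : ℝ)) :=
  rayOn_of_rayChk hLne hLq2 hLq3 rayT0 _ _ _ _ (by decide) (by norm_num) (by norm_num) rayC0

end Vale.Agent.Lib.P154Neg.B7
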