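import Vale.Agent.Lib.P154Neg.B7.Ray0

/-!
# The ray inequality for the potential
-/

namespace Vale.Agent.Lib.P154Neg.B7

open Vale.Agent.Lib.P154 Vale.Agent.Lib.P154GW Vale.Agent.Lib.P154K Tp

theorem fyC : potChk 139 12 Lfy RTf (chamber 1 1) = true := by
  decide +kernel

lemma hRay : RayOn Lq (chamber 1 1) (((-512 : ℤ) : ℝ) / ((1792 : ℤ) : ℝ)) (((1792 : ℤ) : ℝ) / ((1792 : ℤ) : ℝ)) :=
  rayL0

lemma hall (c : Tp) (hc : InSx 1 c) (μ : ℝ) (h0 : -(((2 : ℕ) : ℝ) / ((7 : ℕ) : ℝ)) ≤ μ) (h1 : μ ≤ 1) :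
    0 ≤ hVal Lq c μ ∧ potL Lq (scale μ c) ≤ μ ^ 2 * potL Lq c :=
  ray_all hLq4 hRay c hc μ (by norm_num at h0 ⊢; linarith) (by norm_num; linarith)

lemma hG (c : Tp) (hc : InSx 1 c) : ((16777216 : ℝ)) * p2T c ≤ potL Lq c := by
  have h := (hall c hc 0 (by norm_num) (by norm_num)).1
  have e : hVal Lq c 0 = potL Lq c - ((16777216 : ℝ)) * p2T c := by
    simp only [hVal, potL, Lq, List.map_cons, List.map_nil, List.sum_cons, List.sum_nil]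
    norm_num
    try ring
  linarith

lemma hNn (c : Tp) (hc : InSx 1 c) : 0 ≤ potL Lq c := by
  have := hG c hc
  have h2 := p2T_nonneg c
  nlinarith

lemma hFY (c : Tp) (hc : InSx 1 c) :
    potL Lq (sc (((2 : ℕ) : ℝ) / ((7 : ℕ) : ℝ)) c) + (534445651 : ℝ) * p2T (sc (((2 : ℕ) : ℝ) / ((7 : ℕ) : ℝ)) c) ^ 3 ≤ (((2 : ℕ) : ℝ) / ((7 : ℕ) : ℝ)) ^ 2 * potL Lq c := by
  have h := pot_all (potOn_of_potChk (L := Lfy) (by simp [Lfy]) hLfy RTf _ (by decide) fyC) c hc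
  have e : potL Lfy c = ((7 : ℕ) : ℝ) ^ 12 * ((((2 : ℕ) : ℝ) / ((7 : ℕ) : ℝ)) ^ 2 * potL Lq c - potL Lq (sc (((2 : ℕ) : ℝ) / ((7 : ℕ) : ℝ)) c) -
      (534445651 : ℝ) * p2T (sc (((2 : ℕ) : ℝ) / ((7 : ℕ) : ℝ)) c) ^ 3) := by
    simp only [potL, Lfy, Lq, List.map_cons, List.map_nil, List.sum_cons, List.sum_nil, sc, p2T_scale', p3T_scale']
    norm_num
    try ring
  rw [e] at h
  have := nonneg_of_mul_nonneg_right h (by positivity)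
  linarith

end Vale.Agent.Lib.P154Neg.B7
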